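import Mathlib

/-! Definitions for problem P144 (universality of critical Ising correlations). -/

namespace Vale.Agent.H15.P144

open Filter Topology MeasureTheory

/-- A point of the square lattice, in lattice units. -/
abbrev Site := ℤ × ℤ

/-- A configuration: a real number at each site.  The value is `1` or `-1` at a site carrying a
spin; the value `0` means that there is no spin at that site. -/
abbrev Conf := Site → ℝ

/-- An expectation functional. -/
abbrev Ex := (Conf → ℝ) → ℝ

/-- The point `a p` of `a ℤ²`. -/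
noncomputable def pt (a : ℝ) (p : Site) : ℂ := ⟨a * p.1, a * p.2⟩

open Classical in
/-- `D_a = D ∩ a ℤ²` in lattice units (finite for bounded `D` and `a > 0`). -/
noncomputable def sites (D : Set ℂ) (a : ℝ) : Finset Site :=
  if h : {p : Site | pt a p ∈ D}.Finite then h.toFinset else ∅

/-- Squared Euclidean distance. -/
def dist2 (p q : Site) : ℤ := (p.1 - q.1) ^ 2 + (p.2 - q.2) ^ 2

/-- `A` is a pair of nearest neighbours. -/
def IsBond (A : Finset Site) : Prop := ∃ p q, A = {p, q} ∧ dist2 p q = 1

/-- The potentials `V` of the problem. -/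
structure IsPotential (V : Finset Site → ℝ) : Prop where
  empty : V ∅ = 0
  odd : ∀ A : Finset Site, Odd A.card → V A = 0
  range : ∃ R : ℝ, ∀ A : Finset Site, (∃ p ∈ A, ∃ q ∈ A, R < Real.sqrt (dist2 p q)) → V A = 0
  translate : ∀ (v : Site) (A : Finset Site), V (A.image fun p => p + v) = V A
  rotate : ∀ A : Finset Site, V (A.image fun p => (-p.2, p.1)) = V A
  reflect : ∀ A : Finset Site, V (A.image fun p => (-p.1, p.2)) = V A

open Classical in
/-- The energy `H` in the volume `L`: all terms meeting `L` are kept (a term containing a site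
without spin is zero, so only the terms inside `L` count when there are no spins outside `L`). -/
noncomputable def energy (J : ℝ) (V : Finset Site → ℝ) (l : ℝ) (L : Finset Site) (σ : Conf) : ℝ :=
  -∑ᶠ A : Finset Site, if Disjoint A L then 0 else
    ((if IsBond A then J else 0) + l * V A) * ∏ p ∈ A, σ p

/-- Spin `1` on `S`, `-1` on `L \ S`, and the boundary configuration `η` outside `L`. -/
def conf (L : Finset Site) (η : Conf) (S : Finset Site) : Conf :=
  fun p => if p ∈ L then (if p ∈ S then 1 else -1) else η p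

/-- The expectation with weights `exp (w σ)` over the spins in `L`. -/
noncomputable def expect (L : Finset Site) (η : Conf) (w : Conf → ℝ) : Ex := fun f =>
  (∑ S ∈ L.powerset, Real.exp (w (conf L η S)) * f (conf L η S)) /
    ∑ S ∈ L.powerset, Real.exp (w (conf L η S))

/-- The finite-volume Gibbs measure with boundary configuration `η`. -/
noncomputable def gibbs (β J : ℝ) (V : Finset Site → ℝ) (l : ℝ) (L : Finset Site) (η : Conf) : Ex :=
  expect L η fun σ => -β * energy J V l L σ

/-- Lattice coordinates of `[z]_a`. -/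
noncomputable def cell (a : ℝ) (z : ℂ) : Site := (⌊z.re / a⌋, ⌊z.im / a⌋)

/-- `e_1`, `e_2` -/
def dir (j : Fin 2) : Site := if j = 0 then (1, 0) else (0, 1)

/-- `σ_{[y]_a} σ_{[y]_a + a e_j}` -/
noncomputable def bond (a : ℝ) (y : ℂ) (j : Fin 2) (σ : Conf) : ℝ :=
  σ (cell a y) * σ (cell a y + dir j)

/-- `⟨∏ S_a(x_i) ∏ E_{a,j_k}(y_k)⟩` for the expectation `ex` at mesh `a`. -/
noncomputable def corr (ex : Ex) (a : ℝ) {n m : ℕ} (x : Fin n → ℂ) (y : Fin m → ℂ)
    (j : Fin m → Fin 2) : ℝ :=
  ex fun σ => (∏ i, a ^ (-(1 / 8) : ℝ) * σ (cell a (x i))) *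
    ∏ k, a⁻¹ * (bond a (y k) (j k) σ - ex (bond a (y k) (j k)))

/-- Distinct points of `U`. -/
def Pts (U : Set ℂ) {n m : ℕ} (x : Fin n → ℂ) (y : Fin m → ℂ) : Prop :=
  Function.Injective (Sum.elim x y) ∧ (∀ i, x i ∈ U) ∧ ∀ k, y k ∈ U

/-- `C` is the limit of the correlation as `a ↓ 0`. -/
def HasLimit (ex : ℝ → Ex) {n m : ℕ} (x : Fin n → ℂ) (y : Fin m → ℂ) (j : Fin m → Fin 2)
    (C : ℝ) : Prop :=
  Tendsto (fun a => corr (ex a) a x y j) (𝓝[>] 0) (𝓝 C)

/-- All correlations at distinct points of `U` have limits. -/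
def LimitsExist (ex : ℝ → Ex) (U : Set ℂ) : Prop :=
  ∀ (n m : ℕ) (x : Fin n → ℂ) (y : Fin m → ℂ) (j : Fin m → Fin 2), Pts U x y →
    ∃ C, HasLimit ex x y j C

/-- The limits of the correlations of `ex` are those of `ex₀` up to the amplitudes. -/
def SameUpTo (ex₀ ex : ℝ → Ex) (U : Set ℂ) (Zs Ze : ℝ) : Prop :=
  ∀ (n m : ℕ) (x : Fin n → ℂ) (y : Fin m → ℂ) (j : Fin m → Fin 2), Pts U x y → 1 ≤ n + m →
    ∀ C, HasLimit ex₀ x y j C → HasLimit ex x y j (Zs ^ n * Ze ^ m * C)

/-- A free (no spins outside) or fixed (`±1` outside) boundary configuration. -/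
def FreeOrFixed (η : Conf) : Prop := (∀ p, η p = 0) ∨ ∀ p, η p = 1 ∨ η p = -1

/-- Translation-invariant infinite-volume state obtained as a weak limit of finite-volume Gibbs
measures. -/
structure IsPlaneState (β J : ℝ) (V : Finset Site → ℝ) (l : ℝ) (μ : Measure Conf) : Prop where
  prob : IsProbabilityMeasure μ
  spins : ∀ᵐ σ ∂μ, ∀ p, σ p = 1 ∨ σ p = -1
  invariant : ∀ v : Site, μ.map (fun σ p => σ (p + v)) = μ
  limit : ∃ (L : ℕ → Finset Site) (η : ℕ → Conf), (∀ p, ∀ᶠ n in atTop, p ∈ L n) ∧
    (∀ n, FreeOrFixed (η n)) ∧ ∀ A : Finset Site,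
      Tendsto (fun n => gibbs β J V l (L n) (η n) fun σ => ∏ p ∈ A, σ p) atTop
        (𝓝 (∫ σ, ∏ p ∈ A, σ p ∂μ))

/-- `K_c` -/
noncomputable def Kc : ℝ := Real.log (1 + Real.sqrt 2) / 2

/-- A boundary condition: for each mesh `a` a configuration outside `D_a`, either none (free) for
all `a`, or a prescribed `±1` configuration for all `a`. -/
def IsBC (b : ℝ → Conf) : Prop := (∀ a p, b a p = 0) ∨ ∀ a p, b a p = 1 ∨ b a p = -1

/-- The four nearest neighbours of a site. -/
def nb (p : Site) : Finset Site :=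
  {(p.1 + 1, p.2), (p.1 - 1, p.2), (p.1, p.2 + 1), (p.1, p.2 - 1)}

/-- The potential of the counterexample: for a pair of sites, the number of their common nearest
neighbours (two at distance `√2`, one at distance `2`); zero for all other sets. -/
noncomputable def V0 (A : Finset Site) : ℝ :=
  if A.card = 2 then (Set.ncard {z : Site | ∀ p ∈ A, dist2 z p = 1} : ℝ) else 0

/-- Expectation in the critical nearest-neighbour Ising model on `L` in which the spin at `p ∈ L`
feels the boundary field `h p` (in units of the nearest-neighbour coupling). -/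
noncomputable def critIsing (L : Finset Site) (h : Conf) : Ex :=
  expect L 0 fun σ => Kc * ((∑ p ∈ L, ∑ q ∈ L, if dist2 p q = 1 then σ p * σ q else 0) / 2 +
    ∑ p ∈ L, h p * σ p)

/-- The one-point function of the spin field at `z` converges to `C`. -/
def OnePoint (ex : ℝ → Ex) (z : ℂ) (C : ℝ) : Prop :=
  HasLimit ex (fun _ : Fin 1 => z) (Fin.elim0 : Fin 0 → ℂ) Fin.elim0 C

end Vale.Agent.H15.P144
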