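import Mathlib
import Vale.Agent.H15.P144.Defs

/-! The universality statement of P144, pointwise reading, and the published fact used. -/

namespace Vale.Agent.H15.P144

open Filter Topology MeasureTheory

/-- The data `β_c(λ), Z_σ(λ), Z_ε(λ)` of the question exist for `J, V, λ = l`; the identity is
required for each correlation in a domain whose limit at `λ = 0` exists. -/
def HasDataPt (J : ℝ) (V : Finset Site → ℝ) (l : ℝ) : Prop :=
  ∃ βc Zs Ze : ℝ, 0 < βc ∧ Zs ≠ 0 ∧ Ze ≠ 0 ∧
    (∃ P : ℝ → Measure Conf, (∀ a > 0, IsPlaneState βc J V l (P a)) ∧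
      ∀ P₀ : ℝ → Measure Conf, (∀ a > 0, IsPlaneState (Kc / J) J V 0 (P₀ a)) →
        SameUpTo (fun a f => ∫ σ, f σ ∂(P₀ a)) (fun a f => ∫ σ, f σ ∂(P a)) Set.univ Zs Ze) ∧
    ∀ (D : Set ℂ) (b : ℝ → Conf), IsOpen D → IsConnected D → Bornology.IsBounded D → IsBC b →
      SameUpTo (fun a => gibbs (Kc / J) J V 0 (sites D a) (b a))
        (fun a => gibbs βc J V l (sites D a) (b a)) D Zs Ze

/-- The statement to be proved or disproved. -/
def UniversalityPt : Prop :=
  ∀ J > 0, ∀ V, IsPotential V → ∃ l₀ > 0, ∀ l, |l| < l₀ → HasDataPt J V l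

/-- A rotated rectangle. -/
def rect : Set ℂ := {z | |z.re + z.im| < 2 ∧ |z.re - z.im| < 1}

/-- For the critical nearest-neighbour model with plus boundary condition in `rect`, the rescaled
magnetisation at the centre has a nonzero limit. -/
def PlusOnePoint : Prop :=
  ∃ C ≠ 0, OnePoint
    (fun a => critIsing (sites rect a) (fun p => ((nb p \ sites rect a).card : ℝ))) 0 C

end Vale.Agent.H15.P144
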