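import Mathlib
import Vale.Agent.H15.P144.Defs

/-! The universality statement of P144 and the published facts used for its refutation. -/

namespace Vale.Agent.H15.P144

open Filter Topology MeasureTheory

/-- The data `β_c(λ), Z_σ(λ), Z_ε(λ)` of the question exist for `J, V, λ = l`. -/
def HasData (J : ℝ) (V : Finset Site → ℝ) (l : ℝ) : Prop :=
  ∃ βc Zs Ze : ℝ, 0 < βc ∧ Zs ≠ 0 ∧ Ze ≠ 0 ∧
    (∃ P : ℝ → Measure Conf, (∀ a > 0, IsPlaneState βc J V l (P a)) ∧
      ∀ P₀ : ℝ → Measure Conf, (∀ a > 0, IsPlaneState (Kc / J) J V 0 (P₀ a)) →
        SameUpTo (fun a f => ∫ σ, f σ ∂(P₀ a)) (fun a f => ∫ σ, f σ ∂(P a)) Set.univ Zs Ze) ∧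
    ∀ (D : Set ℂ) (b : ℝ → Conf), IsOpen D → IsConnected D → Bornology.IsBounded D → IsBC b →
      LimitsExist (fun a => gibbs (Kc / J) J V 0 (sites D a) (b a)) D →
        SameUpTo (fun a => gibbs (Kc / J) J V 0 (sites D a) (b a))
          (fun a => gibbs βc J V l (sites D a) (b a)) D Zs Ze

/-- The statement to be proved or disproved. -/
def Universality : Prop :=
  ∀ J > 0, ∀ V, IsPotential V → ∃ l₀ > 0, ∀ l, |l| < l₀ → HasData J V l

/-- The square with corners `±1`, `±i`. -/
def square : Set ℂ := {z | |z.re + z.im| < 1 ∧ |z.re - z.im| < 1}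

/-- At mesh `a`, every second site of the first lattice row outside the square along the middle
half of the side `x + y = 1`. -/
def Minus (a : ℝ) (p : Site) : Prop :=
  1 ≤ a * (p.1 + p.2) ∧ a * (p.1 + p.2 - 1) < 1 ∧ |a * (p.1 - p.2)| < 1 / 2 ∧ Odd p.1

/-- Boundary field of the plus boundary condition: the number of outside neighbours. -/
noncomputable def plusField (a : ℝ) (p : Site) : ℝ := ((nb p \ sites square a).card : ℝ)

open Classical in
/-- Boundary field of the plus boundary condition with a free arc in the middle of one side. -/
noncomputable def mixField (a : ℝ) (p : Site) : ℝ :=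
  if ∃ q ∈ nb p, Minus a q then 0 else plusField a p

/-- Published facts on the critical nearest-neighbour model in the square: all correlations
have limits for the plus boundary condition and for the plus boundary condition with a free arc,
and these limits differ for the one-point function of the spin. -/
def Published : Prop :=
  LimitsExist (fun a => critIsing (sites square a) (plusField a)) square ∧
  LimitsExist (fun a => critIsing (sites square a) (mixField a)) square ∧
  ∃ z ∈ square, ∃ C C' : ℝ, C ≠ C' ∧
    OnePoint (fun a => critIsing (sites square a) (plusField a)) z C ∧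
    OnePoint (fun a => critIsing (sites square a) (mixField a)) z C'

end Vale.Agent.H15.P144
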