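import Mathlib
import Vale.Agent.H15.P144.Defs

namespace Vale.Agent.H15.P144

open Finset

lemma pair_card {p q : Site} (h : p ≠ q) : ({p, q} : Finset Site).card = 2 :=
  Finset.card_pair h

/-- sum over two-element subsets as half the sum over ordered pairs -/
lemma sum_pairs (T : Finset Site) (F : Finset Site → ℝ) :
    ∑ p ∈ T, ∑ q ∈ T, (if p = q then 0 else F {p, q}) = 2 * ∑ A ∈ T.powersetCard 2, F A := by
  have h1 : ∑ p ∈ T, ∑ q ∈ T, (if p = q then 0 else F {p, q}) =
      ∑ x ∈ T.offDiag, F {x.1, x.2} := by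
    rw [← Finset.sum_product', ← Finset.sum_filter_add_sum_filter_not (T ×ˢ T)
      (fun x : Site × Site => x.1 = x.2)]
    have z : ∑ x ∈ (T ×ˢ T).filter (fun x : Site × Site => x.1 = x.2),
        (if x.1 = x.2 then 0 else F {x.1, x.2}) = 0 := by
      apply Finset.sum_eq_zero; intro x hx
      rw [if_pos (Finset.mem_filter.mp hx).2]
    rw [z, zero_add]
    apply Finset.sum_congr
    · ext x; simp only [mem_filter, mem_product, mem_offDiag]; tauto
    · intro x hx
      rw [if_neg]
      rw [mem_offDiag] at hx; exact hx.2.2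
  rw [h1, ← Finset.sum_fiberwise_of_maps_to (s := T.offDiag) (t := T.powersetCard 2)
    (g := fun x => {x.1, x.2})]
  · rw [Finset.mul_sum]
    apply Finset.sum_congr rfl
    intro A hA
    rw [mem_powersetCard] at hA
    obtain ⟨p, q, hpq, rfl⟩ := Finset.card_eq_two.mp hA.2
    have e : T.offDiag.filter (fun x : Site × Site => ({x.1, x.2} : Finset Site) = {p, q}) =
        {(p, q), (q, p)} := by
      ext ⟨u, v⟩
      simp only [mem_filter, mem_offDiag, mem_insert, mem_singleton, Prod.mk.injEq]
      constructor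
      · rintro ⟨⟨-, -, huv⟩, h2⟩
        have hu : u ∈ ({p, q} : Finset Site) := by rw [← h2]; simp
        have hv : v ∈ ({p, q} : Finset Site) := by rw [← h2]; simp
        simp only [mem_insert, mem_singleton] at hu hv
        rcases hu with rfl | rfl <;> rcases hv with rfl | rfl <;> simp_all
      · have hp : p ∈ T := hA.1 (by simp)
        have hq : q ∈ T := hA.1 (by simp)
        rintro (⟨rfl, rfl⟩ | ⟨rfl, rfl⟩)
        · exact ⟨⟨hp, hq, hpq⟩, rfl⟩
        · exact ⟨⟨hq, hp, hpq.symm⟩, Finset.pair_comm _ _⟩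
    rw [e, Finset.sum_pair]
    · rw [Finset.pair_comm q p]; ring
    · intro hcon; exact hpq (Prod.mk.injEq .. ▸ hcon).1
  · intro x hx
    rw [mem_offDiag] at hx
    rw [mem_powersetCard]
    refine ⟨?_, pair_card hx.2.2⟩
    intro y hy
    simp only [mem_insert, mem_singleton] at hy
    rcases hy with rfl | rfl
    · exact hx.1
    · exact hx.2.1

/-- pair form of the energy -/
lemma finsum_pairs (c : Finset Site → ℝ) (W : Site → Finset Site)
    (hc : ∀ A, c A ≠ 0 → ∃ p q, p ≠ q ∧ A = {p, q})
    (hW : ∀ p q, p ≠ q → c {p, q} ≠ 0 → q ∈ W p) (L : Finset Site) (σ : Conf)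
    [∀ A : Finset Site, Decidable (Disjoint A L)] :
    (∑ᶠ A : Finset Site, if Disjoint A L then 0 else c A * ∏ p ∈ A, σ p) =
     (∑ p ∈ L, ∑ q ∈ L, (if p = q then 0 else c {p, q}) * (σ p * σ q)) / 2 +
     ∑ p ∈ L, σ p * ∑ q ∈ (L.biUnion W) \ L, c {p, q} * σ q := by
  set T := L ∪ L.biUnion W with hT
  set F : Finset Site → ℝ := fun A => if Disjoint A L then 0 else c A * ∏ p ∈ A, σ p with hF
  have hsupp : Function.support F ⊆ ↑(T.powersetCard 2) := by
    intro A hA
    rw [Function.mem_support] at hA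
    simp only [hF] at hA
    rw [ite_ne_left_iff] at hA
    obtain ⟨hdis, hne⟩ := hA
    have hcA : c A ≠ 0 := by
      intro h0; rw [h0, zero_mul] at hne; exact hne rfl
    obtain ⟨p, q, hpq, rfl⟩ := hc A hcA
    rw [Finset.mem_coe, mem_powersetCard]
    have hq : q ∈ W p := hW p q hpq hcA
    have hp : p ∈ W q := hW q p hpq.symm (by rw [Finset.pair_comm]; exact hcA)
    have hmeet : p ∈ L ∨ q ∈ L := by
      by_contra hcon
      rw [not_or] at hcon
      apply hdis
      rw [Finset.disjoint_left]
      intro y hy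
      simp only [mem_insert, mem_singleton] at hy
      rcases hy with rfl | rfl
      · exact hcon.1
      · exact hcon.2
    refine ⟨?_, pair_card hpq⟩
    intro y hy
    simp only [mem_insert, mem_singleton] at hy
    rw [hT, mem_union]
    rcases hmeet with h | h <;> rcases hy with rfl | rfl
    · exact Or.inl h
    · exact Or.inr (mem_biUnion.mpr ⟨_, h, hq⟩)
    · exact Or.inr (mem_biUnion.mpr ⟨_, h, hp⟩)
    · exact Or.inl h
  rw [finsum_eq_sum_of_support_subset F hsupp]
  have h2 := sum_pairs T F
  have hT2 : T = L ∪ (L.biUnion W) \ L := by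
    rw [hT]; ext y; simp only [mem_union, mem_sdiff]; tauto
  set R := (L.biUnion W) \ L with hR
  have hdisj : Disjoint L R := by rw [hR]; exact Finset.disjoint_sdiff
  have hval : ∀ p q, p ≠ q → (p ∈ L ∨ q ∈ L) → F {p, q} = c {p, q} * (σ p * σ q) := by
    intro p q hpq hm
    simp only [hF]
    rw [if_neg]
    · rw [Finset.prod_pair hpq]
    · intro hd
      rw [Finset.disjoint_left] at hd
      rcases hm with h | h
      · exact hd (by simp) h
      · exact hd (by simp) h
  have hzero : ∀ p q, p ∉ L → q ∉ L → F {p, q} = 0 := by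
    intro p q hp hq
    simp only [hF]
    rw [if_pos]
    rw [Finset.disjoint_left]
    intro y hy
    simp only [mem_insert, mem_singleton] at hy
    rcases hy with rfl | rfl
    · exact hp
    · exact hq
  have hRL : ∀ q ∈ R, q ∉ L := fun q hq hqL => (Finset.disjoint_left.mp hdisj) hqL hq
  have e1 : ∑ p ∈ T, ∑ q ∈ T, (if p = q then 0 else F {p, q}) =
      ∑ p ∈ L, ∑ q ∈ L, (if p = q then 0 else c {p, q}) * (σ p * σ q) +
      2 * ∑ p ∈ L, σ p * ∑ q ∈ R, c {p, q} * σ q := by
    rw [hT2, Finset.sum_union hdisj]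
    have a1 : ∑ p ∈ L, ∑ q ∈ L ∪ R, (if p = q then 0 else F {p, q}) =
        ∑ p ∈ L, ∑ q ∈ L, (if p = q then 0 else c {p, q}) * (σ p * σ q) +
        ∑ p ∈ L, σ p * ∑ q ∈ R, c {p, q} * σ q := by
      rw [← Finset.sum_add_distrib]
      apply Finset.sum_congr rfl; intro p hp
      rw [Finset.sum_union hdisj]
      congr 1
      · apply Finset.sum_congr rfl; intro q hq
        split_ifs with h
        · simp
        · rw [hval p q h (Or.inl hp)]
      · rw [Finset.mul_sum]
        apply Finset.sum_congr rfl; intro q hq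
        have hne : p ≠ q := fun h => hRL q hq (h ▸ hp)
        rw [if_neg hne, hval p q hne (Or.inl hp)]; ring
    have a2 : ∑ p ∈ R, ∑ q ∈ L ∪ R, (if p = q then 0 else F {p, q}) =
        ∑ p ∈ L, σ p * ∑ q ∈ R, c {p, q} * σ q := by
      have : ∀ p ∈ R, ∑ q ∈ L ∪ R, (if p = q then 0 else F {p, q}) =
          ∑ q ∈ L, σ q * (c {q, p} * σ p) := by
        intro p hp
        rw [Finset.sum_union hdisj]
        have z : ∑ q ∈ R, (if p = q then 0 else F {p, q}) = 0 := by
          apply Finset.sum_eq_zero; intro q hq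
          split_ifs
          · rfl
          · exact hzero p q (hRL p hp) (hRL q hq)
        rw [z, add_zero]
        apply Finset.sum_congr rfl; intro q hq
        have hne : p ≠ q := fun h => hRL p hp (h ▸ hq)
        rw [if_neg hne, hval p q hne (Or.inr hq), Finset.pair_comm]; ring
      rw [Finset.sum_congr rfl this, Finset.sum_comm]
      apply Finset.sum_congr rfl; intro p _
      rw [Finset.mul_sum]
    rw [a1, a2]; ring
  rw [e1] at h2
  linarith

end Vale.Agent.H15.P144
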