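import Mathlib
import Vale.Agent.H15.P144.Energy
import Vale.Agent.H15.Ising5

namespace Vale.Agent.H15.P144

open Finset Vale.Agent.H15.Ising

lemma sq_add_sq_eq_one {u v : ℤ} (h : u ^ 2 + v ^ 2 = 1) :
    (u = 1 ∧ v = 0) ∨ (u = -1 ∧ v = 0) ∨ (u = 0 ∧ v = 1) ∨ (u = 0 ∧ v = -1) := by
  have hu : u ≤ 1 := by nlinarith [sq_nonneg v]
  have hu' : -1 ≤ u := by nlinarith [sq_nonneg v]
  have hv : v ≤ 1 := by nlinarith [sq_nonneg u]
  have hv' : -1 ≤ v := by nlinarith [sq_nonneg u]
  interval_cases u <;> interval_cases v <;> simp_all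

lemma mem_nb {p q : Site} : q ∈ nb p ↔ dist2 p q = 1 := by
  obtain ⟨a, b⟩ := p
  obtain ⟨c, d⟩ := q
  simp only [nb, mem_insert, mem_singleton, Prod.mk.injEq, dist2]
  constructor
  · rintro (⟨rfl, rfl⟩ | ⟨rfl, rfl⟩ | ⟨rfl, rfl⟩ | ⟨rfl, rfl⟩) <;> ring
  · intro h
    rcases sq_add_sq_eq_one h with h | h | h | h <;> omega

lemma nb_cases {z q : Site} (h : q ∈ nb z) :
    q = (z.1 + 1, z.2) ∨ q = (z.1 - 1, z.2) ∨ q = (z.1, z.2 + 1) ∨ q = (z.1, z.2 - 1) := by
  simpa [nb] using h

lemma dist2_comm (p q : Site) : dist2 p q = dist2 q p := by unfold dist2; ring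

lemma nb_comm {p q : Site} : q ∈ nb p ↔ p ∈ nb q := by rw [mem_nb, mem_nb, dist2_comm]

lemma nb_card (p : Site) : (nb p).card ≤ 4 := Finset.card_le_four

lemma not_mem_nb_self (p : Site) : p ∉ nb p := by
  rw [mem_nb]; unfold dist2; simp

lemma V0_image (g : Site ≃ Site) (hg : ∀ p q, dist2 (g p) (g q) = dist2 p q) (A : Finset Site) :
    V0 (A.image g) = V0 A := by
  unfold V0
  rw [Finset.card_image_of_injective _ g.injective]
  congr 2
  have : {z : Site | ∀ p ∈ A.image g, dist2 z p = 1} = g '' {z : Site | ∀ p ∈ A, dist2 z p = 1} := by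
    ext z
    constructor
    · intro h
      refine ⟨g.symm z, ?_, by simp⟩
      intro p hp
      have := h (g p) (Finset.mem_image_of_mem g hp)
      rw [← hg]; simpa using this
    · rintro ⟨w, hw, rfl⟩ p hp
      obtain ⟨q, hq, rfl⟩ := Finset.mem_image.mp hp
      rw [hg]; exact hw q hq
  rw [this, Set.ncard_image_of_injective _ g.injective]

lemma V0_isPotential : IsPotential V0 where
  empty := by simp [V0]
  odd := by
    intro A hA
    unfold V0
    rw [if_neg]
    intro h; rw [h] at hA; exact absurd hA (by decide)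
  range := by
    refine ⟨2, ?_⟩
    rintro A ⟨p, hp, q, hq, h⟩
    unfold V0
    split_ifs with hc
    · have : {z : Site | ∀ p ∈ A, dist2 z p = 1} = ∅ := by
        rw [Set.eq_empty_iff_forall_notMem]
        intro z hz
        have h1 := hz p hp
        have h2 := hz q hq
        have h3 : dist2 p q ≤ 4 := by
          unfold dist2 at *
          nlinarith [sq_nonneg ((z.1 - p.1) + (z.1 - q.1)), sq_nonneg ((z.2 - p.2) + (z.2 - q.2))]
        have h4 : Real.sqrt (dist2 p q) ≤ 2 := by
          rw [Real.sqrt_le_left (by norm_num)]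
          have : (dist2 p q : ℝ) ≤ 4 := by exact_mod_cast h3
          linarith
        linarith
      rw [this]; simp
    · rfl
  translate := by
    intro v A
    exact V0_image (Equiv.addRight v) (fun p q => by simp [dist2]) A
  rotate := by
    intro A
    exact V0_image ⟨fun p => (-p.2, p.1), fun p => (p.2, -p.1), fun p => by simp,
      fun p => by simp⟩ (fun p q => by simp only [dist2, Equiv.coe_fn_mk]; ring) A
  reflect := by
    intro A
    exact V0_image ⟨fun p => (-p.1, p.2), fun p => (-p.1, p.2), fun p => by simp,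
      fun p => by simp⟩ (fun p q => by simp only [dist2, Equiv.coe_fn_mk]; ring) A

lemma V0_pair {p q : Site} (h : p ≠ q) :
    V0 {p, q} = ∑ z ∈ nb p, if q ∈ nb z then 1 else 0 := by
  unfold V0
  rw [if_pos (pair_card h)]
  have : {z : Site | ∀ r ∈ ({p, q} : Finset Site), dist2 z r = 1} =
      ↑((nb p).filter (fun z => q ∈ nb z)) := by
    ext z
    simp only [Finset.coe_filter, mem_insert, mem_singleton, Set.mem_ofPred_eq]
    constructor
    · intro h
      exact ⟨nb_comm.mp (mem_nb.mpr (h p (Or.inl rfl))), mem_nb.mpr (h q (Or.inr rfl))⟩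
    · rintro ⟨h1, h2⟩ r (rfl | rfl)
      · exact mem_nb.mp (nb_comm.mp h1)
      · exact mem_nb.mp h2
  rw [this, Set.ncard_coe_finset]
  simp

open Classical in
/-- coupling of a finite set -/
noncomputable def coup (J : ℝ) (V : Finset Site → ℝ) (l : ℝ) (A : Finset Site) : ℝ :=
  (if IsBond A then J else 0) + l * V A

lemma isBond_pair {p q : Site} : IsBond {p, q} ↔ q ∈ nb p := by
  rw [mem_nb]
  constructor
  · rintro ⟨u, v, h, hd⟩
    have hne : u ≠ v := by rintro rfl; unfold dist2 at hd; simp at hd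
    have hu : u ∈ ({p, q} : Finset Site) := by rw [h]; simp
    have hv : v ∈ ({p, q} : Finset Site) := by rw [h]; simp
    simp only [mem_insert, mem_singleton] at hu hv
    rcases hu with rfl | rfl <;> rcases hv with rfl | rfl
    · exact absurd rfl hne
    · exact hd
    · rw [dist2_comm]; exact hd
    · exact absurd rfl hne
  · intro h; exact ⟨p, q, rfl, h⟩

lemma coup_pair (J l : ℝ) {p q : Site} (h : p ≠ q) :
    coup J V0 l {p, q} = (if q ∈ nb p then J else 0) + l * ∑ z ∈ nb p, if q ∈ nb z then 1 else 0 := by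
  unfold coup
  rw [V0_pair h]
  congr 1
  simp only [isBond_pair]

lemma coup_zero_pair (J : ℝ) (V : Finset Site → ℝ) {p q : Site} :
    coup J V 0 {p, q} = (if q ∈ nb p then J else 0) := by
  unfold coup
  rw [zero_mul, add_zero]
  simp only [isBond_pair]

lemma bond_pair {A : Finset Site} (h : IsBond A) : ∃ p q, p ≠ q ∧ A = {p, q} := by
  obtain ⟨u, v, h, hd⟩ := h
  refine ⟨u, v, ?_, h⟩
  rintro rfl; unfold dist2 at hd; simp at hd

lemma coup_supp (J l : ℝ) (A : Finset Site) (h : coup J V0 l A ≠ 0) :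
    ∃ p q, p ≠ q ∧ A = {p, q} := by
  by_cases hb : IsBond A
  · exact bond_pair hb
  · unfold coup at h
    rw [if_neg hb, zero_add] at h
    have : V0 A ≠ 0 := by intro h0; rw [h0, mul_zero] at h; exact h rfl
    unfold V0 at this
    rw [ite_ne_right_iff] at this
    exact Finset.card_eq_two.mp this.1

lemma coup_zero_supp (J : ℝ) (V : Finset Site → ℝ) (A : Finset Site) (h : coup J V 0 A ≠ 0) :
    ∃ p q, p ≠ q ∧ A = {p, q} := by
  by_cases hb : IsBond A
  · exact bond_pair hb
  · unfold coup at h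
    rw [if_neg hb, zero_add, zero_mul] at h
    exact absurd rfl h

/-- sites interacting with `p` -/
def W (p : Site) : Finset Site := nb p ∪ (nb p).biUnion nb

lemma coup_range (J l : ℝ) (p q : Site) (hpq : p ≠ q) (h : coup J V0 l {p, q} ≠ 0) : q ∈ W p := by
  rw [coup_pair J l hpq] at h
  unfold W
  rw [mem_union, mem_biUnion]
  by_contra hcon
  rw [not_or] at hcon
  apply h
  rw [if_neg hcon.1, Finset.sum_eq_zero, mul_zero, add_zero]
  intro z hz
  rw [if_neg]
  intro hq
  exact hcon.2 ⟨z, hz, hq⟩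

lemma coup_zero_range (J : ℝ) (V : Finset Site → ℝ) (p q : Site) (_ : p ≠ q)
    (h : coup J V 0 {p, q} ≠ 0) : q ∈ W p := by
  rw [coup_zero_pair] at h
  unfold W
  rw [mem_union]
  left
  by_contra hcon
  rw [if_neg hcon] at h
  exact h rfl

/-- total value of the boundary configuration on the outside neighbours of `z` -/
noncomputable def out (L : Finset Site) (η : Conf) (z : Site) : ℝ := ∑ q ∈ nb z \ L, η q

lemma sum_out (L : Finset Site) (η : Conf) (R : Finset Site) (z : Site) (hR : Disjoint R L)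
    (hz : nb z \ L ⊆ R) :
    ∑ q ∈ R, (if q ∈ nb z then (1:ℝ) else 0) * η q = out L η z := by
  unfold out
  rw [← Finset.sum_subset hz]
  · apply Finset.sum_congr rfl
    intro q hq
    rw [if_pos (Finset.mem_sdiff.mp hq).1, one_mul]
  · intro q hq hn
    rw [if_neg, zero_mul]
    intro hcon
    exact hn (Finset.mem_sdiff.mpr ⟨hcon, Finset.disjoint_left.mp hR hq⟩)

lemma field_eq (J l : ℝ) (L : Finset Site) (η : Conf) {p : Site} (hp : p ∈ L) :
    ∑ q ∈ (L.biUnion W) \ L, coup J V0 l {p, q} * η q =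
      J * out L η p + l * ∑ z ∈ nb p, out L η z := by
  set R := (L.biUnion W) \ L with hR
  have hdis : Disjoint R L := by rw [hR]; exact Finset.sdiff_disjoint
  have h1 : ∀ q ∈ R, coup J V0 l {p, q} * η q =
      J * ((if q ∈ nb p then (1:ℝ) else 0) * η q) +
      l * ∑ z ∈ nb p, (if q ∈ nb z then (1:ℝ) else 0) * η q := by
    intro q hq
    have hne : p ≠ q := by rintro rfl; exact Finset.disjoint_left.mp hdis hq hp
    rw [coup_pair J l hne, ← Finset.sum_mul]
    by_cases hq2 : q ∈ nb p
    · rw [if_pos hq2, if_pos hq2]; ring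
    · rw [if_neg hq2, if_neg hq2]; ring
  rw [Finset.sum_congr rfl h1, Finset.sum_add_distrib, ← Finset.mul_sum, ← Finset.mul_sum,
    Finset.sum_comm]
  have h2 : nb p \ L ⊆ R := by
    intro q hq
    rw [Finset.mem_sdiff] at hq
    rw [hR, Finset.mem_sdiff, mem_biUnion]
    exact ⟨⟨p, hp, by unfold W; rw [mem_union]; exact Or.inl hq.1⟩, hq.2⟩
  rw [sum_out L η R p hdis h2]
  congr 2
  apply Finset.sum_congr rfl
  intro z hz
  apply sum_out L η R z hdis
  intro q hq
  rw [Finset.mem_sdiff] at hq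
  rw [hR, Finset.mem_sdiff, mem_biUnion]
  exact ⟨⟨p, hp, by unfold W; rw [mem_union, mem_biUnion]; exact Or.inr ⟨z, hz, hq.1⟩⟩, hq.2⟩

lemma field_zero_eq (J : ℝ) (V : Finset Site → ℝ) (L : Finset Site) (η : Conf) {p : Site}
    (hp : p ∈ L) :
    ∑ q ∈ (L.biUnion W) \ L, coup J V 0 {p, q} * η q = J * out L η p := by
  set R := (L.biUnion W) \ L with hR
  have hdis : Disjoint R L := by rw [hR]; exact Finset.sdiff_disjoint
  have h1 : ∀ q ∈ R, coup J V 0 {p, q} * η q =
      J * ((if q ∈ nb p then (1:ℝ) else 0) * η q) := by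
    intro q hq
    rw [coup_zero_pair]
    split_ifs <;> ring
  rw [Finset.sum_congr rfl h1, ← Finset.mul_sum]
  have h2 : nb p \ L ⊆ R := by
    intro q hq
    rw [Finset.mem_sdiff] at hq
    rw [hR, Finset.mem_sdiff, mem_biUnion]
    exact ⟨⟨p, hp, by unfold W; rw [mem_union]; exact Or.inl hq.1⟩, hq.2⟩
  rw [sum_out L η R p hdis h2]

end Vale.Agent.H15.P144
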