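import Mathlib
import Vale.Agent.H15.P144.Model

namespace Vale.Agent.H15.P144

open Finset Vale.Agent.H15.Ising

/-- configuration with Boolean spins in `L` -/
noncomputable def cfg (L : Finset Site) (η : Conf) (s : L → Bool) : Conf :=
  fun p => if h : p ∈ L then sv (s ⟨p, h⟩) else η p

lemma conf_eq_cfg (L : Finset Site) (η : Conf) (S : Finset Site) :
    conf L η S = cfg L η (fun x => decide (x.1 ∈ S)) := by
  funext p
  unfold conf cfg
  by_cases h : p ∈ L
  · simp [h, sv]
  · simp [h]

lemma sum_powerset_eq (L : Finset Site) (η : Conf) (g : Conf → ℝ) :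
    ∑ S ∈ L.powerset, g (conf L η S) = ∑ s : L → Bool, g (cfg L η s) := by
  apply Finset.sum_nbij' (i := fun S (x : L) => decide (x.1 ∈ S))
    (j := fun s => (univ.filter (fun x : L => s x = true)).map (Function.Embedding.subtype _))
  · intro S _; exact mem_univ _
  · intro s _
    rw [mem_powerset]
    intro p hp
    simp only [mem_map, mem_filter, mem_univ, true_and, Function.Embedding.coe_subtype] at hp
    obtain ⟨x, _, rfl⟩ := hp
    exact x.2
  · intro S hS
    rw [mem_powerset] at hS
    ext p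
    simp only [mem_map, mem_filter, mem_univ, true_and, Function.Embedding.coe_subtype,
      decide_eq_true_eq]
    constructor
    · rintro ⟨x, hx, rfl⟩; exact hx
    · intro hp; exact ⟨⟨p, hS hp⟩, hp, rfl⟩
  · intro s _
    funext x
    simp only [mem_map, mem_filter, mem_univ, true_and, Function.Embedding.coe_subtype]
    by_cases hx : s x = true
    · rw [hx, decide_eq_true_eq]; exact ⟨x, hx, rfl⟩
    · have : s x = false := by simpa using hx
      rw [this, decide_eq_false_iff_not]
      rintro ⟨y, hy, hxy⟩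
      have : y = x := Subtype.ext hxy
      rw [this] at hy; exact hx hy
  · intro S _; rw [conf_eq_cfg]

lemma expect_eq (L : Finset Site) (η : Conf) (w f : Conf → ℝ) (K : L → L → ℝ) (h : L → ℝ)
    (hw : ∀ s, w (cfg L η s) = Q K h s) :
    expect L η w f = E K h (fun s => f (cfg L η s)) := by
  unfold expect E A
  rw [sum_powerset_eq L η (fun σ => Real.exp (w σ) * f σ),
    sum_powerset_eq L η (fun σ => Real.exp (w σ))]
  simp only [hw, mul_one]

/-- pair couplings of the model -/
noncomputable def KK (β J l : ℝ) (L : Finset Site) (x y : L) : ℝ :=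
  β * (if x.1 = y.1 then 0 else coup J V0 l {x.1, y.1})

/-- boundary fields of the model -/
noncomputable def hh (β J l : ℝ) (L : Finset Site) (η : Conf) (x : L) : ℝ :=
  β * (J * out L η x.1 + l * ∑ z ∈ nb x.1, out L η z)

lemma energy_eq (J : ℝ) (V : Finset Site → ℝ) (l : ℝ) (L : Finset Site) (σ : Conf)
    (hc : ∀ A, coup J V l A ≠ 0 → ∃ p q, p ≠ q ∧ A = {p, q})
    (hW : ∀ p q, p ≠ q → coup J V l {p, q} ≠ 0 → q ∈ W p) :
    energy J V l L σ =
     -((∑ p ∈ L, ∑ q ∈ L, (if p = q then 0 else coup J V l {p, q}) * (σ p * σ q)) / 2 +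
     ∑ p ∈ L, σ p * ∑ q ∈ (L.biUnion W) \ L, coup J V l {p, q} * σ q) := by
  unfold energy
  classical
  rw [← finsum_pairs (coup J V l) W hc hW L σ]
  rfl

lemma cfg_in {L : Finset Site} {η : Conf} {s : L → Bool} (x : L) : cfg L η s x.1 = sv (s x) := by
  unfold cfg; simp

lemma cfg_out {L : Finset Site} {η : Conf} {s : L → Bool} {p : Site} (h : p ∉ L) :
    cfg L η s p = η p := by
  unfold cfg; simp [h]

lemma weight_eq (β J l : ℝ) (L : Finset Site) (η : Conf) (s : L → Bool) :
    -β * energy J V0 l L (cfg L η s) = Q (KK β J l L) (hh β J l L η) s := by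
  rw [energy_eq J V0 l L _ (coup_supp J l) (coup_range J l)]
  unfold Q
  have e1 : ∑ p ∈ L, ∑ q ∈ L, (if p = q then 0 else coup J V0 l {p, q}) *
      (cfg L η s p * cfg L η s q) = ∑ x : L, ∑ y : L, (if x.1 = y.1 then 0 else
        coup J V0 l {x.1, y.1}) * (sv (s x) * sv (s y)) := by
    rw [← Finset.sum_coe_sort L]
    apply Finset.sum_congr rfl; intro x _
    rw [← Finset.sum_coe_sort L]
    apply Finset.sum_congr rfl; intro y _
    rw [cfg_in, cfg_in]
  have e2 : ∑ p ∈ L, cfg L η s p * ∑ q ∈ (L.biUnion W) \ L, coup J V0 l {p, q} * cfg L η s q =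
      ∑ x : L, (J * out L η x.1 + l * ∑ z ∈ nb x.1, out L η z) * sv (s x) := by
    rw [← Finset.sum_coe_sort L]
    apply Finset.sum_congr rfl; intro x _
    rw [cfg_in, ← field_eq J l L η x.2, mul_comm]
    congr 1
    apply Finset.sum_congr rfl; intro q hq
    rw [cfg_out (Finset.mem_sdiff.mp hq).2]
  rw [e1, e2]
  have e3 : ∑ x : L, ∑ y : L, KK β J l L x y * (sv (s x) * sv (s y)) =
      β * ∑ x : L, ∑ y : L, (if x.1 = y.1 then 0 else
        coup J V0 l {x.1, y.1}) * (sv (s x) * sv (s y)) := by
    rw [Finset.mul_sum]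
    apply Finset.sum_congr rfl; intro x _
    rw [Finset.mul_sum]
    apply Finset.sum_congr rfl; intro y _
    unfold KK; ring
  have e4 : ∑ x : L, hh β J l L η x * sv (s x) =
      β * ∑ x : L, (J * out L η x.1 + l * ∑ z ∈ nb x.1, out L η z) * sv (s x) := by
    rw [Finset.mul_sum]
    apply Finset.sum_congr rfl; intro x _
    unfold hh; ring
  rw [e3, e4]; ring

/-- one-point function as a magnetisation -/
lemma gibbs_point (β J l : ℝ) (L : Finset Site) (η : Conf) (x : L) (c : ℝ) :
    gibbs β J V0 l L η (fun σ => c * σ x.1) = c * mag (KK β J l L) (hh β J l L η) x := by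
  unfold gibbs mag
  rw [expect_eq L η _ _ _ _ (weight_eq β J l L η)]
  simp only [cfg_in]
  rw [E_smul]

end Vale.Agent.H15.P144
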