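import Mathlib
import Vale.Agent.H15.P144.Transfer

namespace Vale.Agent.H15.P144

open Finset Filter Topology

lemma expect_congr (L : Finset Site) (η η' : Conf) (w w' f f' : Conf → ℝ)
    (hw : ∀ S ∈ L.powerset, w (conf L η S) = w' (conf L η' S))
    (hf : ∀ S ∈ L.powerset, f (conf L η S) = f' (conf L η' S)) :
    expect L η w f = expect L η' w' f' := by
  unfold expect
  congr 1
  · apply Finset.sum_congr rfl; intro S hS; rw [hw S hS, hf S hS]
  · apply Finset.sum_congr rfl; intro S hS; rw [hw S hS]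

/-- `f` depends only on the spins in `L` -/
def Local (L : Finset Site) (f : Conf → ℝ) : Prop :=
  ∀ σ σ' : Conf, (∀ p ∈ L, σ p = σ' p) → f σ = f σ'

lemma conf_in {L : Finset Site} {η η' : Conf} {S : Finset Site} {p : Site} (hp : p ∈ L) :
    conf L η S p = conf L η' S p := by
  unfold conf; simp [hp]

lemma gibbs_zero {J : ℝ} (hJ : 0 < J) (V : Finset Site → ℝ) (L : Finset Site) (η h : Conf)
    (hh : ∀ p ∈ L, h p = out L η p) (f : Conf → ℝ) (hf : Local L f) :
    gibbs (Kc / J) J V 0 L η f = critIsing L h f := by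
  unfold gibbs critIsing
  apply expect_congr
  · intro S _
    rw [energy_eq J V 0 L _ (coup_zero_supp J V) (coup_zero_range J V)]
    have e1 : ∑ p ∈ L, ∑ q ∈ L, (if p = q then 0 else coup J V 0 {p, q}) *
        (conf L η S p * conf L η S q) =
        J * ∑ p ∈ L, ∑ q ∈ L, if dist2 p q = 1 then conf L 0 S p * conf L 0 S q else 0 := by
      rw [Finset.mul_sum]
      apply Finset.sum_congr rfl; intro p hp
      rw [Finset.mul_sum]
      apply Finset.sum_congr rfl; intro q hq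
      rw [coup_zero_pair, conf_in (η' := 0) hp, conf_in (η' := 0) hq]
      by_cases hpq : p = q
      · subst hpq; simp [dist2]
      · rw [if_neg hpq]
        by_cases hn : q ∈ nb p
        · rw [if_pos hn, if_pos (mem_nb.mp hn)]
        · rw [if_neg hn, if_neg (fun h => hn (mem_nb.mpr h))]; simp
    have e2 : ∑ p ∈ L, conf L η S p * ∑ q ∈ (L.biUnion W) \ L, coup J V 0 {p, q} *
        conf L η S q = J * ∑ p ∈ L, h p * conf L 0 S p := by
      rw [Finset.mul_sum]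
      apply Finset.sum_congr rfl; intro p hp
      rw [conf_in (η' := 0) hp, hh p hp]
      have : ∑ q ∈ (L.biUnion W) \ L, coup J V 0 {p, q} * conf L η S q =
          J * out L η p := by
        rw [← field_zero_eq J V L η hp]
        apply Finset.sum_congr rfl; intro q hq
        have : q ∉ L := (Finset.mem_sdiff.mp hq).2
        unfold conf; rw [if_neg this]
      rw [this]; ring
    rw [e1, e2]
    field_simp
  · intro S _
    exact hf _ _ (fun p hp => conf_in hp)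

/-- the lattice points seen by a correlation function lie in `L` -/
def Sees (L : Finset Site) (a : ℝ) {n m : ℕ} (x : Fin n → ℂ) (y : Fin m → ℂ)
    (j : Fin m → Fin 2) : Prop :=
  (∀ i, cell a (x i) ∈ L) ∧ (∀ k, cell a (y k) ∈ L) ∧ ∀ k, cell a (y k) + dir (j k) ∈ L

lemma corr_congr (L : Finset Site) (ex ex' : Ex) (h : ∀ f, Local L f → ex f = ex' f) (a : ℝ)
    {n m : ℕ} (x : Fin n → ℂ) (y : Fin m → ℂ) (j : Fin m → Fin 2) (hL : Sees L a x y j) :
    corr ex a x y j = corr ex' a x y j := by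
  obtain ⟨h1, h2, h3⟩ := hL
  have hb : ∀ k, Local L (bond a (y k) (j k)) := by
    intro k σ σ' hσ
    unfold bond; rw [hσ _ (h2 k), hσ _ (h3 k)]
  unfold corr
  have e : ∀ k, ex (bond a (y k) (j k)) = ex' (bond a (y k) (j k)) := fun k => h _ (hb k)
  simp only [e]
  apply h
  intro σ σ' hσ
  have e1 : ∀ i, σ (cell a (x i)) = σ' (cell a (x i)) := fun i => hσ _ (h1 i)
  have e2 : ∀ k, bond a (y k) (j k) σ = bond a (y k) (j k) σ' := fun k => hb k σ σ' hσ
  simp only [e1, e2]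

lemma finite_sites {D : Set ℂ} (hD : Bornology.IsBounded D) {a : ℝ} (ha : 0 < a) :
    {p : Site | pt a p ∈ D}.Finite := by
  obtain ⟨R, hR⟩ := hD.subset_closedBall 0
  apply Set.Finite.subset (Set.finite_Icc ((-⌈R / a⌉, -⌈R / a⌉) : Site) (⌈R / a⌉, ⌈R / a⌉))
  intro p hp
  have h1 := hR hp
  rw [Metric.mem_closedBall, dist_zero_right] at h1
  have hre : |a * (p.1 : ℝ)| ≤ R := (Complex.abs_re_le_norm (pt a p)).trans h1
  have him : |a * (p.2 : ℝ)| ≤ R := (Complex.abs_im_le_norm (pt a p)).trans h1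
  have key : ∀ k : ℤ, |a * (k : ℝ)| ≤ R → -⌈R / a⌉ ≤ k ∧ k ≤ ⌈R / a⌉ := by
    intro k hk
    rw [abs_le] at hk
    have h2 : (k : ℝ) ≤ R / a := by rw [le_div_iff₀ ha]; linarith
    have h3 : -(R / a) ≤ (k : ℝ) := by
      rw [neg_le, le_div_iff₀ ha]; linarith
    have h4 := Int.le_ceil (R / a)
    constructor
    · have : (-(⌈R / a⌉ : ℤ) : ℝ) ≤ k := by linarith
      exact_mod_cast this
    · have : (k : ℝ) ≤ (⌈R / a⌉ : ℤ) := by linarith
      exact_mod_cast this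
  have k1 := key _ hre
  have k2 := key _ him
  exact ⟨⟨k1.1, k2.1⟩, ⟨k1.2, k2.2⟩⟩

lemma mem_sites {D : Set ℂ} (hD : Bornology.IsBounded D) {a : ℝ} (ha : 0 < a) {p : Site} :
    p ∈ sites D a ↔ pt a p ∈ D := by
  unfold sites
  rw [dif_pos (finite_sites hD ha)]
  simp

lemma pt_cell_near (z : ℂ) {a : ℝ} (ha : 0 < a) (v : Site) (hv : |v.1| ≤ 1 ∧ |v.2| ≤ 1) :
    dist (pt a (cell a z + v)) z ≤ 4 * a := by
  have key : ∀ (t : ℝ) (u : ℤ), |u| ≤ 1 → |a * ((⌊t / a⌋ + u : ℤ) : ℝ) - t| ≤ 2 * a := by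
    intro t u hu
    have h1 := Int.floor_le (t / a)
    have h2 := Int.lt_floor_add_one (t / a)
    rw [le_div_iff₀ ha] at h1
    rw [div_lt_iff₀ ha] at h2
    have hu' : |(u : ℝ)| ≤ 1 := by exact_mod_cast hu
    rw [abs_le] at hu' ⊢
    push_cast
    constructor <;> nlinarith
  rw [dist_eq_norm]
  refine (Complex.norm_le_abs_re_add_abs_im _).trans ?_
  have h1 := key z.re v.1 hv.1
  have h2 := key z.im v.2 hv.2
  have e1 : (pt a (cell a z + v) - z).re = a * ((⌊z.re / a⌋ + v.1 : ℤ) : ℝ) - z.re := rfl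
  have e2 : (pt a (cell a z + v) - z).im = a * ((⌊z.im / a⌋ + v.2 : ℤ) : ℝ) - z.im := rfl
  rw [e1, e2]
  linarith

lemma eventually_mem_sites {D : Set ℂ} (hD : Bornology.IsBounded D) (hO : IsOpen D) {z : ℂ}
    (hz : z ∈ D) (v : Site) (hv : |v.1| ≤ 1 ∧ |v.2| ≤ 1) :
    ∀ᶠ a in 𝓝[>] (0:ℝ), cell a z + v ∈ sites D a := by
  obtain ⟨ε, hε, hball⟩ := Metric.isOpen_iff.mp hO z hz
  have h1 : ∀ᶠ a in 𝓝[>] (0:ℝ), a < ε / 4 :=
    (Filter.Tendsto.eventually_lt_const (by positivity) tendsto_id).filter_mono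
      nhdsWithin_le_nhds
  have h2 : ∀ᶠ a in 𝓝[>] (0:ℝ), 0 < a := self_mem_nhdsWithin
  filter_upwards [h1, h2] with a ha1 ha2
  rw [mem_sites hD ha2]
  apply hball
  rw [Metric.mem_ball]
  have := pt_cell_near z ha2 v hv
  linarith

lemma dir_small (j : Fin 2) : |(dir j).1| ≤ 1 ∧ |(dir j).2| ≤ 1 := by
  unfold dir; split_ifs <;> simp

lemma eventually_sees {D : Set ℂ} (hD : Bornology.IsBounded D) (hO : IsOpen D) {n m : ℕ}
    (x : Fin n → ℂ) (y : Fin m → ℂ) (j : Fin m → Fin 2) (hx : ∀ i, x i ∈ D)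
    (hy : ∀ k, y k ∈ D) : ∀ᶠ a in 𝓝[>] (0:ℝ), Sees (sites D a) a x y j := by
  have h0 : ∀ z ∈ D, ∀ᶠ a in 𝓝[>] (0:ℝ), cell a z ∈ sites D a := by
    intro z hz
    have := eventually_mem_sites hD hO hz 0 (by simp)
    simpa using this
  have h1 : ∀ᶠ a in 𝓝[>] (0:ℝ), ∀ i, cell a (x i) ∈ sites D a :=
    Filter.eventually_all.mpr (fun i => h0 _ (hx i))
  have h2 : ∀ᶠ a in 𝓝[>] (0:ℝ), ∀ k, cell a (y k) ∈ sites D a :=
    Filter.eventually_all.mpr (fun k => h0 _ (hy k))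
  have h3 : ∀ᶠ a in 𝓝[>] (0:ℝ), ∀ k, cell a (y k) + dir (j k) ∈ sites D a :=
    Filter.eventually_all.mpr (fun k => eventually_mem_sites hD hO (hy k) _ (dir_small _))
  filter_upwards [h1, h2, h3] with a a1 a2 a3
  exact ⟨a1, a2, a3⟩

lemma hasLimit_congr {ex ex' : ℝ → Ex} {n m : ℕ} {x : Fin n → ℂ} {y : Fin m → ℂ}
    {j : Fin m → Fin 2} {C : ℝ} (h : ∀ᶠ a in 𝓝[>] (0:ℝ), corr (ex a) a x y j = corr (ex' a) a x y j)
    (h1 : HasLimit ex' x y j C) : HasLimit ex x y j C := by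
  unfold HasLimit at *
  apply h1.congr'
  filter_upwards [h] with a ha
  exact ha.symm

/-- at `λ = 0` the limits only depend on the nearest-neighbour boundary field -/
lemma hasLimit_zero {D : Set ℂ} (hD : Bornology.IsBounded D) (hO : IsOpen D) {J : ℝ} (hJ : 0 < J)
    (V : Finset Site → ℝ) (b h : ℝ → Conf)
    (hh : ∀ᶠ a in 𝓝[>] (0:ℝ), ∀ p ∈ sites D a, h a p = out (sites D a) (b a) p) {n m : ℕ}
    {x : Fin n → ℂ} {y : Fin m → ℂ} {j : Fin m → Fin 2} (hP : Pts D x y) {C : ℝ}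
    (hl : HasLimit (fun a => critIsing (sites D a) (h a)) x y j C) :
    HasLimit (fun a => gibbs (Kc / J) J V 0 (sites D a) (b a)) x y j C := by
  apply hasLimit_congr _ hl
  filter_upwards [hh, eventually_sees hD hO x y j hP.2.1 hP.2.2] with a ha hs
  exact corr_congr (sites D a) _ _ (fun f hf => gibbs_zero hJ V _ _ _ ha f hf) a x y j hs

end Vale.Agent.H15.P144
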