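import Mathlib
import Vale.Agent.H15.P144.Zero

namespace Vale.Agent.H15.P144

open Finset Vale.Agent.H15.Ising

lemma out_one_le (L : Finset Site) (z : Site) : out L (fun _ => 1) z ≤ 4 := by
  unfold out
  rw [Finset.sum_const, nsmul_eq_mul, mul_one]
  have h1 : (nb z \ L).card ≤ 4 := (Finset.card_le_card Finset.sdiff_subset).trans (nb_card z)
  exact_mod_cast h1

lemma out_one_nonneg (L : Finset Site) (z : Site) : 0 ≤ out L (fun _ => 1) z := by
  unfold out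
  exact Finset.sum_nonneg (fun _ _ => zero_le_one)

lemma out_zero_of_subset {L : Finset Site} {η : Conf} {z : Site} (h : nb z ⊆ L) :
    out L η z = 0 := by
  unfold out
  rw [Finset.sdiff_eq_empty_iff_subset.mpr h, Finset.sum_empty]

lemma out_mono (L : Finset Site) {η η' : Conf} (h : ∀ p, η p ≤ η' p) (z : Site) :
    out L η z ≤ out L η' z := Finset.sum_le_sum (fun q _ => h q)

lemma sum_nb_le (f : Site → ℝ) (c : ℝ) (hc : 0 ≤ c) (h : ∀ z, f z ≤ c) (p : Site) :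
    ∑ z ∈ nb p, f z ≤ 4 * c := by
  calc ∑ z ∈ nb p, f z ≤ ∑ z ∈ nb p, c := Finset.sum_le_sum (fun z _ => h z)
    _ = (nb p).card * c := by rw [Finset.sum_const, nsmul_eq_mul]
    _ ≤ 4 * c := by
      apply mul_le_mul_of_nonneg_right _ hc
      exact_mod_cast nb_card p

lemma coup_nonneg {J l : ℝ} (hJ : 0 ≤ J) (hl : 0 ≤ l) {p q : Site} (h : p ≠ q) :
    0 ≤ coup J V0 l {p, q} := by
  rw [coup_pair J l h]
  have h1 : 0 ≤ ∑ z ∈ nb p, (if q ∈ nb z then (1:ℝ) else 0) :=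
    Finset.sum_nonneg (fun z _ => by split_ifs <;> norm_num)
  split_ifs
  · positivity
  · positivity

lemma KK_nonneg {β J l : ℝ} (hβ : 0 ≤ β) (hJ : 0 ≤ J) (hl : 0 ≤ l) (L : Finset Site) (x y : L) :
    0 ≤ KK β J l L x y := by
  unfold KK
  apply mul_nonneg hβ
  split_ifs with h
  · exact le_rfl
  · exact coup_nonneg hJ hl h

lemma KK_symm (β J l : ℝ) (L : Finset Site) (x y : L) : KK β J l L x y = KK β J l L y x := by
  unfold KK
  rw [Finset.pair_comm]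
  by_cases h : x.1 = y.1
  · rw [if_pos h, if_pos h.symm]
  · rw [if_neg h, if_neg (fun h' => h h'.symm)]

lemma KK_diag (β J l : ℝ) (L : Finset Site) (x : L) : KK β J l L x x = 0 := by
  unfold KK; simp

lemma KK_nb {β J l : ℝ} (hβ : 0 ≤ β) (hl : 0 ≤ l) (L : Finset Site) (x y : L)
    (h : y.1 ∈ nb x.1) : β * J ≤ KK β J l L x y := by
  have hne : x.1 ≠ y.1 := by
    intro hcon; rw [hcon] at h; exact not_mem_nb_self _ h
  unfold KK
  rw [if_neg hne, coup_pair J l hne, if_pos h]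
  apply mul_le_mul_of_nonneg_left _ hβ
  have h1 : 0 ≤ ∑ z ∈ nb x.1, (if y.1 ∈ nb z then (1:ℝ) else 0) :=
    Finset.sum_nonneg (fun z _ => by split_ifs <;> norm_num)
  have := mul_nonneg hl h1
  linarith

lemma sum_ind_le (L : Finset Site) (z : Site) :
    ∑ y : L, (if y.1 ∈ nb z then (1:ℝ) else 0) ≤ 4 := by
  rw [Finset.sum_coe_sort L (fun y => if y ∈ nb z then (1:ℝ) else 0)]
  rw [← Finset.sum_filter, Finset.sum_const, nsmul_eq_mul, mul_one]
  have h1 : (L.filter (fun y => y ∈ nb z)).card ≤ 4 := by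
    refine (Finset.card_le_card ?_).trans (nb_card z)
    intro y hy; exact (Finset.mem_filter.mp hy).2
  exact_mod_cast h1

lemma KK_sum {β J l : ℝ} (hβ : 0 ≤ β) (hJ : 0 ≤ J) (hl : 0 ≤ l) (L : Finset Site) (x : L) :
    ∑ y, KK β J l L x y ≤ β * (4 * J + 16 * l) := by
  have h1 : ∀ y : L, KK β J l L x y ≤ β * (J * (if y.1 ∈ nb x.1 then (1:ℝ) else 0) +
      l * ∑ z ∈ nb x.1, (if y.1 ∈ nb z then (1:ℝ) else 0)) := by
    intro y
    unfold KK
    apply mul_le_mul_of_nonneg_left _ hβ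
    have h2 : 0 ≤ ∑ z ∈ nb x.1, (if y.1 ∈ nb z then (1:ℝ) else 0) :=
      Finset.sum_nonneg (fun z _ => by split_ifs <;> norm_num)
    by_cases h : x.1 = y.1
    · rw [if_pos h]
      split_ifs <;> positivity
    · rw [if_neg h, coup_pair J l h]
      split_ifs <;> linarith
  refine (Finset.sum_le_sum (fun y _ => h1 y)).trans ?_
  rw [← Finset.mul_sum]
  apply mul_le_mul_of_nonneg_left _ hβ
  rw [Finset.sum_add_distrib, ← Finset.mul_sum, ← Finset.mul_sum, Finset.sum_comm]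
  have h3 := mul_le_mul_of_nonneg_left (sum_ind_le L x.1) hJ
  have h4 : ∑ z ∈ nb x.1, ∑ y : L, (if y.1 ∈ nb z then (1:ℝ) else 0) ≤ 4 * 4 :=
    sum_nb_le _ 4 (by norm_num) (fun z => sum_ind_le L z) x.1
  have h5 := mul_le_mul_of_nonneg_left h4 hl
  linarith

/-- the constant of the comparison -/
noncomputable def CC (β J l : ℝ) : ℝ :=
  β * (4 * J + 16 * l) / (β * l) +
    16 * β * l * (Real.cosh (3 * (β * (4 * J + 16 * l))) ^ 2 / (β * J) * (4 : ℕ)) / (β * l)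

lemma CC_nonneg {β J l : ℝ} (hβ : 0 < β) (hJ : 0 < J) (hl : 0 < l) : 0 ≤ CC β J l := by
  unfold CC; positivity

lemma hh_mono {β J l : ℝ} (hβ : 0 ≤ β) (hJ : 0 ≤ J) (hl : 0 ≤ l) (L : Finset Site)
    {η η' : Conf} (h : ∀ p, η p ≤ η' p) (x : L) : hh β J l L η x ≤ hh β J l L η' x := by
  unfold hh
  apply mul_le_mul_of_nonneg_left _ hβ
  have e1 := out_mono L h x.1
  have e2 : ∑ z ∈ nb x.1, out L η z ≤ ∑ z ∈ nb x.1, out L η' z :=
    Finset.sum_le_sum (fun z _ => out_mono L h z)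
  have := mul_le_mul_of_nonneg_left e2 hl
  have := mul_le_mul_of_nonneg_left e1 hJ
  linarith

/-- hypotheses on the pair of boundary configurations -/
structure Good (L : Finset Site) (ηp ηm : Conf) : Prop where
  le_out : ∀ x ∈ L, ∀ z ∈ nb x, out L ηm z ≤ out L ηp z
  le_one : ∀ p, ηp p ≤ 1
  inside : ∀ x ∈ L, 0 ≤ out L ηp x
  same : ∀ x ∈ L, out L ηm x = out L ηp x
  outside : ∀ z, z ∉ L → (∃ x ∈ L, z ∈ nb x) → 1 ≤ out L ηp z
  gap : ∀ z, z ∉ L → (∃ x ∈ L, z ∈ nb x) → out L ηm z + 1 ≤ out L ηp z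

lemma Good.out_nonneg {L : Finset Site} {ηp ηm : Conf} (G : Good L ηp ηm) (x : L) {z : Site}
    (hz : z ∈ nb x.1) : 0 ≤ out L ηp z := by
  by_cases hzL : z ∈ L
  · exact G.inside z hzL
  · linarith [G.outside z hzL ⟨x.1, x.2, hz⟩]

lemma Good.hp_nonneg {L : Finset Site} {ηp ηm : Conf} (G : Good L ηp ηm) {β J l : ℝ}
    (hβ : 0 ≤ β) (hJ : 0 ≤ J) (hl : 0 ≤ l) (x : L) : 0 ≤ hh β J l L ηp x := by
  unfold hh
  have h1 := mul_nonneg hJ (G.inside x.1 x.2)
  have h2 := mul_nonneg hl (Finset.sum_nonneg (fun z hz => G.out_nonneg x hz))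
  exact mul_nonneg hβ (add_nonneg h1 h2)

lemma Good.gain {L : Finset Site} {ηp ηm : Conf} (G : Good L ηp ηm) {β J l : ℝ}
    (hβ : 0 ≤ β) (hJ : 0 ≤ J) (hl : 0 ≤ l) (x : L) (hx : ¬ nb x.1 ⊆ L) :
    β * l ≤ hh β J l L ηp x ∧ hh β J l L ηm x + β * l ≤ hh β J l L ηp x := by
  rw [Finset.not_subset] at hx
  obtain ⟨z, hz, hzL⟩ := hx
  have g1 : 1 ≤ ∑ z ∈ nb x.1, out L ηp z :=
    (G.outside z hzL ⟨x.1, x.2, hz⟩).trans
      (Finset.single_le_sum (fun z hz => G.out_nonneg x hz) hz)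
  have g2 : ∑ z ∈ nb x.1, out L ηm z + 1 ≤ ∑ z ∈ nb x.1, out L ηp z := by
    rw [← Finset.add_sum_erase _ _ hz, ← Finset.add_sum_erase (f := out L ηp) _ hz]
    have h3 := G.gap z hzL ⟨x.1, x.2, hz⟩
    have h4 : ∑ z ∈ (nb x.1).erase z, out L ηm z ≤ ∑ z ∈ (nb x.1).erase z, out L ηp z :=
      Finset.sum_le_sum (fun z hz => G.le_out x.1 x.2 z (Finset.mem_of_mem_erase hz))
    linarith
  have g3 := mul_le_mul_of_nonneg_left g1 hl
  have g4 := mul_le_mul_of_nonneg_left g2 hl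
  constructor
  · unfold hh
    apply mul_le_mul_of_nonneg_left _ hβ
    have := mul_nonneg hJ (G.inside x.1 x.2)
    linarith
  · unfold hh
    rw [← mul_add]
    apply mul_le_mul_of_nonneg_left _ hβ
    rw [G.same x.1 x.2]
    linarith

lemma h1_bd {β J l : ℝ} (hβ : 0 ≤ β) (hJ : 0 ≤ J) (hl : 0 ≤ l) (L : Finset Site) (x : L) :
    hh β J l L (fun _ => 1) x ≤ β * (4 * J + 16 * l) := by
  have hs : ∑ z ∈ nb x.1, out L (fun _ => 1) z ≤ 4 * 4 :=
    sum_nb_le _ 4 (by norm_num) (out_one_le L) x.1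
  have a1 := out_one_le L x.1
  unfold hh
  apply mul_le_mul_of_nonneg_left _ hβ
  have := mul_le_mul_of_nonneg_left a1 hJ
  have := mul_le_mul_of_nonneg_left hs hl
  linarith

lemma h1_bd2 {β J l : ℝ} (hβ : 0 ≤ β) (hl : 0 ≤ l) (L : Finset Site) (x : L)
    (hx : nb x.1 ⊆ L) : hh β J l L (fun _ => 1) x ≤ 16 * β * l := by
  have hs : ∑ z ∈ nb x.1, out L (fun _ => 1) z ≤ 4 * 4 :=
    sum_nb_le _ 4 (by norm_num) (out_one_le L) x.1
  unfold hh
  rw [out_zero_of_subset hx]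
  have h1 := mul_le_mul_of_nonneg_left hs hl
  have h2 := mul_le_mul_of_nonneg_left h1 hβ
  linarith

lemma h1_bd3 (β J l : ℝ) (L : Finset Site) (x : L) (η : Conf)
    (hx : nb x.1 ⊆ L) (hx2 : ∀ z ∈ nb x.1, nb z ⊆ L) : hh β J l L η x = 0 := by
  unfold hh
  rw [out_zero_of_subset hx, Finset.sum_eq_zero (fun z hz => out_zero_of_subset (hx2 z hz))]
  ring

theorem layer {β J l : ℝ} (hβ : 0 < β) (hJ : 0 < J) (hl : 0 < l) (L : Finset Site)
    (ηp ηm : Conf) (G : Good L ηp ηm) (o : L) (ho : nb o.1 ⊆ L) :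
    mag (KK β J l L) (hh β J l L fun _ => 1) o ≤
      mag (KK β J l L) (hh β J l L ηp) o + CC β J l *
        (mag (KK β J l L) (hh β J l L ηp) o - mag (KK β J l L) (hh β J l L ηm) o) := by
  classical
  obtain ⟨T, hT⟩ : ∃ T, T = β * (4 * J + 16 * l) := ⟨_, rfl⟩
  obtain ⟨τ, hτ⟩ : ∃ τ, τ = 16 * β * l := ⟨_, rfl⟩
  obtain ⟨δ, hδ⟩ : ∃ δ, δ = β * l := ⟨_, rfl⟩
  have hT0 : 0 < T := by rw [hT]; positivity
  have hτ0 : 0 < τ := by rw [hτ]; positivity
  have hδ0 : 0 < δ := by rw [hδ]; positivity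
  have hδT : δ < T := by
    rw [hδ, hT]
    apply mul_lt_mul_of_pos_left _ hβ; linarith
  obtain ⟨K, hK⟩ : ∃ K, K = KK β J l L := ⟨_, rfl⟩
  obtain ⟨h1, hh1⟩ : ∃ h1, h1 = hh β J l L fun _ => 1 := ⟨_, rfl⟩
  obtain ⟨hp, hhp⟩ : ∃ hp, hp = hh β J l L ηp := ⟨_, rfl⟩
  obtain ⟨hm, hhm⟩ : ∃ hm, hm = hh β J l L ηm := ⟨_, rfl⟩
  obtain ⟨b, hb⟩ : ∃ b : Finset L, b = univ.filter (fun x => ¬ nb x.1 ⊆ L) := ⟨_, rfl⟩
  obtain ⟨b1, hb1⟩ : ∃ b1 : Finset L,
    b1 = univ.filter (fun x => nb x.1 ⊆ L ∧ ∃ z ∈ nb x.1, ¬ nb z ⊆ L) := ⟨_, rfl⟩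
  obtain ⟨h0, hh0⟩ : ∃ h0 : L → ℝ, h0 = fun x => max (hm x) 0 := ⟨_, rfl⟩
  have hKn : ∀ x y, 0 ≤ K x y := by rw [hK]; exact KK_nonneg hβ.le hJ.le hl.le L
  have hKs : ∀ x y, K x y = K y x := by rw [hK]; exact KK_symm β J l L
  have hKd : ∀ x, K x x = 0 := by rw [hK]; exact KK_diag β J l L
  have mem_b : ∀ x : L, x ∈ b ↔ ¬ nb x.1 ⊆ L := by intro x; simp [hb]
  have mem_b1 : ∀ x : L, x ∈ b1 ↔ nb x.1 ⊆ L ∧ ∃ z ∈ nb x.1, ¬ nb z ⊆ L := by
    intro x; simp [hb1]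
  have hp_nonneg : ∀ x, 0 ≤ hp x := by rw [hhp]; exact G.hp_nonneg hβ.le hJ.le hl.le
  have hm_le_hp : ∀ x, hm x ≤ hp x := by
    intro x
    rw [hhp, hhm]
    unfold hh
    apply mul_le_mul_of_nonneg_left _ hβ.le
    rw [G.same x.1 x.2]
    have := mul_le_mul_of_nonneg_left (Finset.sum_le_sum (G.le_out x.1 x.2)) hl.le
    linarith
  have hp_le_h1 : ∀ x, hp x ≤ h1 x := by
    rw [hhp, hh1]; exact hh_mono hβ.le hJ.le hl.le L G.le_one
  have h0_nonneg : ∀ x, 0 ≤ h0 x := by intro x; rw [hh0]; exact le_max_right _ _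
  have hm_le_h0 : ∀ x, hm x ≤ h0 x := by intro x; rw [hh0]; exact le_max_left _ _
  have h0_le_hp : ∀ x, h0 x ≤ hp x := by
    intro x; rw [hh0]; exact max_le (hm_le_hp x) (hp_nonneg x)
  have gain : ∀ x ∈ b, h0 x + δ ≤ hp x := by
    intro x hx
    have := G.gain hβ.le hJ.le hl.le x ((mem_b x).mp hx)
    rw [← hhp, ← hhm, ← hδ] at this
    rw [hh0]
    simp only
    rcases le_total (hm x) 0 with h | h
    · rw [max_eq_right h]; linarith
    · rw [max_eq_left h]; linarith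
  have h1_le : ∀ x, h1 x ≤ h0 x + (if x ∈ b then T else 0) + (if x ∈ b1 then τ else 0) := by
    intro x
    have hz := h0_nonneg x
    by_cases hxb : x ∈ b
    · rw [if_pos hxb]
      have hnn : 0 ≤ (if x ∈ b1 then τ else 0) := by split_ifs <;> linarith
      have : h1 x ≤ T := by rw [hh1, hT]; exact h1_bd hβ.le hJ.le hl.le L x
      linarith
    · rw [if_neg hxb]
      rw [mem_b, not_not] at hxb
      by_cases hxb1 : x ∈ b1
      · rw [if_pos hxb1]
        have : h1 x ≤ τ := by rw [hh1, hτ]; exact h1_bd2 hβ.le hl.le L x hxb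
        linarith
      · rw [if_neg hxb1]
        rw [mem_b1] at hxb1
        have : h1 x = 0 := by
          rw [hh1]
          apply h1_bd3 β J l L x _ hxb
          intro z hz
          by_contra hcon
          exact hxb1 ⟨hxb, z, hz, hcon⟩
        linarith
  have hν : ∀ y : L, ∃ x : L, y ∈ b1 → (x ∈ b ∧ y.1 ∈ nb x.1) := by
    intro y
    by_cases hy : y ∈ b1
    · rw [mem_b1] at hy
      obtain ⟨hy1, z, hz, hz2⟩ := hy
      refine ⟨⟨z, hy1 hz⟩, fun _ => ⟨?_, nb_comm.mp hz⟩⟩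
      rw [mem_b]; exact hz2
    · exact ⟨y, fun h => absurd h hy⟩
  choose ν hν using hν
  have hob : o ∉ b := by rw [mem_b, not_not]; exact ho
  have hN : ∀ x ∈ b, (b1.filter (fun y => ν y = x)).card ≤ 4 := by
    intro x _
    have : ((b1.filter (fun y => ν y = x)).map (Function.Embedding.subtype _)) ⊆ nb x.1 := by
      intro p hp
      simp only [mem_map, mem_filter, Function.Embedding.coe_subtype] at hp
      obtain ⟨y, ⟨hy, hyx⟩, rfl⟩ := hp
      rw [← hyx]; exact (hν y hy).2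
    calc (b1.filter (fun y => ν y = x)).card
        = ((b1.filter (fun y => ν y = x)).map (Function.Embedding.subtype _)).card := by
          rw [Finset.card_map]
      _ ≤ (nb x.1).card := Finset.card_le_card this
      _ ≤ 4 := nb_card _
  have hκ : ∀ y ∈ b1, β * J ≤ K (ν y) y := by
    intro y hy; rw [hK]; exact KK_nb hβ.le hl.le L _ _ (hν y hy).2
  have hB : ∀ x, h0 x + T + ∑ y, K x y ≤ 3 * T := by
    intro x
    have a1 : ∑ y, K x y ≤ T := by rw [hK, hT]; exact KK_sum hβ.le hJ.le hl.le L x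
    have a3 : h1 x ≤ T := by rw [hh1, hT]; exact h1_bd hβ.le hJ.le hl.le L x
    have a2 := (h0_le_hp x).trans ((hp_le_h1 x).trans a3)
    linarith
  have key := core K h0 hKn hKs hKd h0_nonneg o b b1 hob ν
    (fun y hy => (hν y hy).1) 4 hN hκ (by positivity) hδ0 hδT hτ0.le hB
  have m1 : mag K h1 o ≤ mag K (fun x => h0 x + (if x ∈ b then T else 0) +
      (if x ∈ b1 then τ else 0)) o := mag_mono K h1 hKn _ h1_le o
  have m2 : mag K (fun x => h0 x + (if x ∈ b then δ else 0)) o ≤ mag K hp o := by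
    apply mag_mono K _ hKn
    intro x
    by_cases hx : x ∈ b
    · rw [if_pos hx]; exact gain x hx
    · rw [if_neg hx, add_zero]; exact h0_le_hp x
  have m3 : mag K hm o ≤ mag K h0 o := mag_mono K _ hKn _ hm_le_h0 o
  have m4 : mag K h0 o ≤ mag K hp o := mag_mono K _ hKn _ h0_le_hp o
  have hC := CC_nonneg hβ hJ hl
  have hCC : CC β J l = T / δ + τ * (Real.cosh (3 * T) ^ 2 / (β * J) * (4 : ℕ)) / δ := by
    rw [hT, hτ, hδ]; rfl
  rw [← hCC] at key
  rw [← hK, ← hh1, ← hhp, ← hhm]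
  have m5 : mag K (fun x => h0 x + (if x ∈ b then δ else 0)) o - mag K h0 o ≤
      mag K hp o - mag K hm o := by linarith
  have m6 := mul_le_mul_of_nonneg_left m5 hC
  linarith

/-- plus boundary conditions maximise the magnetisation -/
lemma le_plus {β J l : ℝ} (hβ : 0 ≤ β) (hJ : 0 ≤ J) (hl : 0 ≤ l) (L : Finset Site)
    (η : Conf) (h1 : ∀ p, η p ≤ 1) (o : L) :
    mag (KK β J l L) (hh β J l L η) o ≤ mag (KK β J l L) (hh β J l L fun _ => 1) o := by
  exact mag_mono _ _ (KK_nonneg hβ hJ hl L) _ (hh_mono hβ hJ hl L h1) o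

end Vale.Agent.H15.P144
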