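import Mathlib
import Vale.Agent.H15.P144.Layer
import Vale.Agent.H15.P144.DefsB

namespace Vale.Agent.H15.P144

open Finset Filter Topology

lemma square_bdd : Bornology.IsBounded square := by
  rw [Metric.isBounded_iff_subset_closedBall 0]
  refine ⟨2, ?_⟩
  rintro z ⟨h1, h2⟩
  rw [Metric.mem_closedBall, dist_zero_right]
  refine (Complex.norm_le_abs_re_add_abs_im z).trans ?_
  rw [abs_lt] at h1 h2
  have a1 : |z.re| ≤ 1 := by rw [abs_le]; constructor <;> linarith
  have a2 : |z.im| ≤ 1 := by rw [abs_le]; constructor <;> linarith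
  linarith

lemma square_open : IsOpen square := by
  unfold square
  apply IsOpen.and
  · exact isOpen_lt (by fun_prop) continuous_const
  · exact isOpen_lt (by fun_prop) continuous_const

lemma square_convex : Convex ℝ square := by
  have h1 : square = {z : ℂ | -1 < z.re + z.im ∧ z.re + z.im < 1 ∧ -1 < z.re - z.im ∧
      z.re - z.im < 1} := by
    ext z
    unfold square
    simp only [Set.mem_ofPred_eq, abs_lt]
    tauto
  rw [h1]
  rintro z ⟨a1, a2, a3, a4⟩ w ⟨b1, b2, b3, b4⟩ s t hs ht hst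
  have hz : (s • z + t • w).re = s * z.re + t * w.re := by simp
  have hw : (s • z + t • w).im = s * z.im + t * w.im := by simp
  simp only [Set.mem_ofPred_eq, hz, hw]
  rcases hs.eq_or_lt with h0 | h0
  · have : t = 1 := by linarith
    subst this; rw [← h0]
    refine ⟨?_, ?_, ?_, ?_⟩ <;> linarith
  · have ht1 : t = 1 - s := by linarith
    subst ht1
    refine ⟨?_, ?_, ?_, ?_⟩ <;> nlinarith

lemma square_conn : IsConnected square :=
  ⟨⟨0, by unfold square; simp⟩, square_convex.isPreconnected⟩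

lemma mem_sq {a : ℝ} (ha : 0 < a) {p : Site} :
    p ∈ sites square a ↔ |a * (p.1 + p.2)| < 1 ∧ |a * (p.1 - p.2)| < 1 := by
  rw [mem_sites square_bdd ha]
  unfold square pt
  simp only [Set.mem_ofPred_eq]
  rw [← mul_add, ← mul_sub]

open Classical in
/-- Plus boundary condition with alternating signs along the middle half of one side. -/
noncomputable def bp (a : ℝ) (p : Site) : ℝ := if Minus a p then -1 else 1

open Classical in
/-- The same on the first row outside the square, and minus everywhere else outside. -/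
noncomputable def bm (a : ℝ) (p : Site) : ℝ :=
  if Minus a p then -1 else if ∃ x ∈ nb p, x ∈ sites square a then 1 else -1

lemma bc_bp : IsBC bp := by
  right; intro a p; unfold bp; split_ifs <;> simp

lemma bc_bm : IsBC bm := by
  right; intro a p; unfold bm; split_ifs <;> simp

lemma bc_one : IsBC (fun _ _ => 1) := by
  right; intro a p; simp

/-- a site outside the square with a neighbour inside -/
lemma outer_cases {a : ℝ} (ha : 0 < a) {z x : Site} (hz : z ∉ sites square a)
    (hx : x ∈ sites square a) (hzx : z ∈ nb x) :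
    (1 ≤ a * (z.1 + z.2) ∧ a * (z.1 + z.2) - a < 1) ∨ a * (z.1 + z.2) ≤ -1 ∨
      1 ≤ a * (z.1 - z.2) ∨ a * (z.1 - z.2) ≤ -1 := by
  rw [mem_sq ha] at hz hx
  rw [abs_lt, abs_lt] at hx
  rw [not_and_or, not_lt, not_lt, le_abs, le_abs] at hz
  obtain ⟨⟨h1, h2⟩, h3, h4⟩ := hx
  rcases nb_cases hzx with rfl | rfl | rfl | rfl <;>
  · simp only [Int.cast_add, Int.cast_sub, Int.cast_one] at *
    rcases hz with (hz | hz) | (hz | hz)
    · left; constructor <;> linarith
    · right; left; linarith
    · right; right; left; linarith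
    · right; right; right; linarith

lemma outer_not_minus {a : ℝ} (ha : 0 < a) (ha2 : a ≤ 1 / 4) {z x : Site}
    (hz : z ∉ sites square a) (hx : x ∈ sites square a) (hzx : z ∈ nb x) {q : Site}
    (hq : q ∈ nb z) : ¬ Minus a q := by
  rintro ⟨m1, m2, m3, -⟩
  rw [abs_lt] at m3
  obtain ⟨m3, m4⟩ := m3
  rcases outer_cases ha hz hx hzx with ⟨h1, h2⟩ | h | h | h <;>
  rcases nb_cases hq with rfl | rfl | rfl | rfl <;>
  · simp only [Int.cast_add, Int.cast_sub, Int.cast_one] at *
    linarith

/-- a far site next to an outer site -/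
lemma outer_far {a : ℝ} (ha : 0 < a) {z x : Site}
    (hz : z ∉ sites square a) (hx : x ∈ sites square a) (hzx : z ∈ nb x) :
    ∃ q ∈ nb z, q ∉ sites square a ∧ ∀ r ∈ nb q, r ∉ sites square a := by
  rcases outer_cases ha hz hx hzx with ⟨h1, -⟩ | h | h | h
  · refine ⟨(z.1 + 1, z.2), by simp [nb], ?_, ?_⟩
    · rw [mem_sq ha, abs_lt, abs_lt]
      push_cast
      rintro ⟨⟨u1, u2⟩, u3, u4⟩
      linarith
    · intro r hr
      rw [mem_sq ha, abs_lt, abs_lt]
      rintro ⟨⟨u1, u2⟩, u3, u4⟩
      rcases nb_cases hr with rfl | rfl | rfl | rfl <;>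
      · simp only [Int.cast_add, Int.cast_sub, Int.cast_one] at *
        linarith
  · refine ⟨(z.1 - 1, z.2), by simp [nb], ?_, ?_⟩
    · rw [mem_sq ha, abs_lt, abs_lt]
      push_cast
      rintro ⟨⟨u1, u2⟩, u3, u4⟩
      linarith
    · intro r hr
      rw [mem_sq ha, abs_lt, abs_lt]
      rintro ⟨⟨u1, u2⟩, u3, u4⟩
      rcases nb_cases hr with rfl | rfl | rfl | rfl <;>
      · simp only [Int.cast_add, Int.cast_sub, Int.cast_one] at *
        linarith
  · refine ⟨(z.1 + 1, z.2), by simp [nb], ?_, ?_⟩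
    · rw [mem_sq ha, abs_lt, abs_lt]
      push_cast
      rintro ⟨⟨u1, u2⟩, u3, u4⟩
      linarith
    · intro r hr
      rw [mem_sq ha, abs_lt, abs_lt]
      rintro ⟨⟨u1, u2⟩, u3, u4⟩
      rcases nb_cases hr with rfl | rfl | rfl | rfl <;>
      · simp only [Int.cast_add, Int.cast_sub, Int.cast_one] at *
        linarith
  · refine ⟨(z.1 - 1, z.2), by simp [nb], ?_, ?_⟩
    · rw [mem_sq ha, abs_lt, abs_lt]
      push_cast
      rintro ⟨⟨u1, u2⟩, u3, u4⟩
      linarith
    · intro r hr
      rw [mem_sq ha, abs_lt, abs_lt]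
      rintro ⟨⟨u1, u2⟩, u3, u4⟩
      rcases nb_cases hr with rfl | rfl | rfl | rfl <;>
      · simp only [Int.cast_add, Int.cast_sub, Int.cast_one] at *
        linarith

/-- the outside neighbours of an inner site which has a `Minus` neighbour -/
lemma inner_minus {a : ℝ} (ha : 0 < a) (ha2 : a ≤ 1 / 4) {x q : Site}
    (hx : x ∈ sites square a) (hq : q ∈ nb x) (hm : Minus a q) :
    out (sites square a) (bp a) x = 0 := by
  obtain ⟨m1, m2, m3, m5⟩ := hm
  rw [abs_lt] at m3
  obtain ⟨m3, m4⟩ := m3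
  have hx' := hx
  rw [mem_sq ha, abs_lt, abs_lt] at hx'
  obtain ⟨⟨h1, h2⟩, h3, h4⟩ := hx'
  -- x is on the last inner row, near the middle
  have hrow : 1 ≤ a * (x.1 + x.2) + a ∧ -(1/2) - a < a * (x.1 - x.2) ∧
      a * (x.1 - x.2) < 1/2 + a := by
    rcases nb_cases hq with rfl | rfl | rfl | rfl <;>
    · simp only [Int.cast_add, Int.cast_sub, Int.cast_one] at *
      refine ⟨?_, ?_, ?_⟩ <;> linarith
  obtain ⟨r1, r2, r3⟩ := hrow
  have i2 : ((x.1 - 1, x.2) : Site) ∈ sites square a := by
    rw [mem_sq ha, abs_lt, abs_lt]; push_cast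
    refine ⟨⟨?_, ?_⟩, ?_, ?_⟩ <;> linarith
  have i4 : ((x.1, x.2 - 1) : Site) ∈ sites square a := by
    rw [mem_sq ha, abs_lt, abs_lt]; push_cast
    refine ⟨⟨?_, ?_⟩, ?_, ?_⟩ <;> linarith
  have i1 : ((x.1 + 1, x.2) : Site) ∉ sites square a := by
    rw [mem_sq ha, abs_lt, abs_lt]; push_cast
    rintro ⟨⟨u1, u2⟩, u3, u4⟩; linarith
  have i3 : ((x.1, x.2 + 1) : Site) ∉ sites square a := by
    rw [mem_sq ha, abs_lt, abs_lt]; push_cast
    rintro ⟨⟨u1, u2⟩, u3, u4⟩; linarith
  have hset : nb x \ sites square a = {(x.1 + 1, x.2), (x.1, x.2 + 1)} := by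
    ext r
    rw [Finset.mem_sdiff, Finset.mem_insert, Finset.mem_singleton]
    constructor
    · rintro ⟨hr, hr2⟩
      rcases nb_cases hr with rfl | rfl | rfl | rfl
      · exact Or.inl rfl
      · exact absurd i2 hr2
      · exact Or.inr rfl
      · exact absurd i4 hr2
    · rintro (rfl | rfl)
      · exact ⟨by simp [nb], i1⟩
      · exact ⟨by simp [nb], i3⟩
  unfold out
  rw [hset, Finset.sum_pair (by intro h; simp [Prod.ext_iff] at h)]
  -- parity
  rcases nb_cases hq with rfl | rfl | rfl | rfl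
  · have e1 : bp a (x.1 + 1, x.2) = -1 := by
      unfold bp; rw [if_pos]; exact ⟨m1, m2, abs_lt.mpr ⟨m3, m4⟩, m5⟩
    have e2 : bp a (x.1, x.2 + 1) = 1 := by
      unfold bp; rw [if_neg]
      rintro ⟨-, -, -, m6⟩
      simp only at m5 m6
      rw [Int.odd_iff] at m5 m6
      omega
    rw [e1, e2]; norm_num
  · exact absurd i2 (by
      rw [mem_sq ha, abs_lt, abs_lt]
      rintro ⟨⟨u1, u2⟩, u3, u4⟩
      linarith)
  · have e1 : bp a (x.1, x.2 + 1) = -1 := by
      unfold bp; rw [if_pos]; exact ⟨m1, m2, abs_lt.mpr ⟨m3, m4⟩, m5⟩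
    have e2 : bp a (x.1 + 1, x.2) = 1 := by
      unfold bp; rw [if_neg]
      rintro ⟨-, -, -, m6⟩
      simp only at m5 m6
      rw [Int.odd_iff] at m5 m6
      omega
    rw [e1, e2]; norm_num
  · exact absurd i4 (by
      rw [mem_sq ha, abs_lt, abs_lt]
      rintro ⟨⟨u1, u2⟩, u3, u4⟩
      linarith)

lemma out_bp {a : ℝ} (ha : 0 < a) (ha2 : a ≤ 1 / 4) {x : Site}
    (hx : x ∈ sites square a) : out (sites square a) (bp a) x = mixField a x := by
  unfold mixField
  split_ifs with h
  · obtain ⟨q, hq, hm⟩ := h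
    exact inner_minus ha ha2 hx hq hm
  · unfold out plusField
    rw [Finset.sum_congr rfl (g := fun _ => (1:ℝ))]
    · simp
    · intro q hq
      unfold bp
      rw [if_neg]
      intro hm
      exact h ⟨q, (Finset.mem_sdiff.mp hq).1, hm⟩

lemma bm_eq {a : ℝ} {x q : Site} (hx : x ∈ sites square a) (hq : q ∈ nb x) :
    bm a q = bp a q := by
  unfold bm bp
  split_ifs with h1 h2
  · rfl
  · rfl
  · exact absurd ⟨x, nb_comm.mp hq, hx⟩ h2

theorem good {a : ℝ} (ha : 0 < a) (ha2 : a ≤ 1 / 4) : Good (sites square a) (bp a) (bm a) where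
  le_out := by
    intro x _ z _
    apply out_mono
    intro p
    unfold bm bp
    split_ifs <;> norm_num
  le_one := by
    intro p
    unfold bp
    split_ifs <;> norm_num
  inside := by
    intro x hx
    rw [out_bp ha ha2 hx]
    unfold mixField plusField
    split_ifs
    · exact le_rfl
    · positivity
  same := by
    intro x hx
    unfold out
    apply Finset.sum_congr rfl
    intro q hq
    exact bm_eq hx (Finset.mem_sdiff.mp hq).1
  outside := by
    rintro z hz ⟨x, hx, hzx⟩
    obtain ⟨q, hq, hq2, -⟩ := outer_far ha hz hx hzx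
    have h1 : ∀ r ∈ nb z \ sites square a, bp a r = 1 := by
      intro r hr
      unfold bp
      rw [if_neg]
      exact outer_not_minus ha ha2 hz hx hzx (Finset.mem_sdiff.mp hr).1
    have hmem : q ∈ nb z \ sites square a := Finset.mem_sdiff.mpr ⟨hq, hq2⟩
    unfold out
    calc (1:ℝ) = bp a q := (h1 q hmem).symm
      _ ≤ _ := Finset.single_le_sum (fun r hr => by rw [h1 r hr]; norm_num) hmem
  gap := by
    rintro z hz ⟨x, hx, hzx⟩
    obtain ⟨q, hq, hq2, hq3⟩ := outer_far ha hz hx hzx
    have hmem : q ∈ nb z \ sites square a := Finset.mem_sdiff.mpr ⟨hq, hq2⟩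
    unfold out
    rw [← Finset.add_sum_erase _ _ hmem, ← Finset.add_sum_erase (f := bp a) _ hmem]
    have h1 : ∑ r ∈ (nb z \ sites square a).erase q, bm a r ≤
        ∑ r ∈ (nb z \ sites square a).erase q, bp a r := by
      apply Finset.sum_le_sum
      intro r _
      unfold bm bp
      split_ifs <;> norm_num
    have h2 : bp a q = 1 := by
      unfold bp
      rw [if_neg]
      exact outer_not_minus ha ha2 hz hx hzx hq
    have h3 : bm a q = -1 := by
      unfold bm
      rw [if_neg (outer_not_minus ha ha2 hz hx hzx hq), if_neg]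
      rintro ⟨r, hr, hr2⟩
      exact hq3 r hr hr2
    rw [h2, h3]
    linarith

end Vale.Agent.H15.P144
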