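import Mathlib
import Vale.Agent.H15.P144.Square

namespace Vale.Agent.H15.P144

open Finset Filter Topology Vale.Agent.H15.Ising

lemma corr_one (ex : Ex) (a : ℝ) (z : ℂ) :
    corr ex a (fun _ : Fin 1 => z) (Fin.elim0 : Fin 0 → ℂ) Fin.elim0 =
      ex (fun σ => a ^ (-(1 / 8) : ℝ) * σ (cell a z)) := by
  unfold corr
  congr 1
  funext σ
  simp

lemma pts_one {U : Set ℂ} {z : ℂ} (hz : z ∈ U) :
    Pts U (fun _ : Fin 1 => z) (Fin.elim0 : Fin 0 → ℂ) := by
  refine ⟨?_, fun _ => hz, fun k => k.elim0⟩
  rintro (i | k) (i' | k') _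
  · congr 1; exact Subsingleton.elim _ _
  · exact k'.elim0
  · exact k.elim0
  · exact k.elim0

lemma small : ∀ᶠ a in 𝓝[>] (0:ℝ), 0 < a ∧ a ≤ 1 / 4 := by
  have h1 : ∀ᶠ a in 𝓝[>] (0:ℝ), a < 1 / 4 :=
    (Filter.Tendsto.eventually_lt_const (by norm_num) tendsto_id).filter_mono
      nhdsWithin_le_nhds
  filter_upwards [h1, self_mem_nhdsWithin] with a h1 h2
  exact ⟨h2, h1.le⟩

lemma field_bp : ∀ᶠ a in 𝓝[>] (0:ℝ), ∀ p ∈ sites square a,
    mixField a p = out (sites square a) (bp a) p := by
  filter_upwards [small] with a ha p hp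
  exact (out_bp ha.1 ha.2 hp).symm

lemma field_bm : ∀ᶠ a in 𝓝[>] (0:ℝ), ∀ p ∈ sites square a,
    mixField a p = out (sites square a) (bm a) p := by
  filter_upwards [small] with a ha p hp
  rw [(good ha.1 ha.2).same p hp]
  exact (out_bp ha.1 ha.2 hp).symm

lemma field_one : ∀ᶠ a in 𝓝[>] (0:ℝ), ∀ p ∈ sites square a,
    plusField a p = out (sites square a) ((fun _ _ => 1 : ℝ → Conf) a) p := by
  filter_upwards with a p _
  unfold plusField out
  simp

lemma eventually_nb {z : ℂ} (hz : z ∈ square) :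
    ∀ᶠ a in 𝓝[>] (0:ℝ), cell a z ∈ sites square a ∧ nb (cell a z) ⊆ sites square a := by
  have h0 := eventually_mem_sites square_bdd square_open hz (0, 0) (by simp)
  have h1 := eventually_mem_sites square_bdd square_open hz (1, 0) (by simp)
  have h2 := eventually_mem_sites square_bdd square_open hz (-1, 0) (by simp)
  have h3 := eventually_mem_sites square_bdd square_open hz (0, 1) (by simp)
  have h4 := eventually_mem_sites square_bdd square_open hz (0, -1) (by simp)
  filter_upwards [h0, h1, h2, h3, h4] with a h0 h1 h2 h3 h4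
  constructor
  · convert h0 using 1; ext <;> simp
  · intro q hq
    rcases nb_cases hq with rfl | rfl | rfl | rfl
    · convert h1 using 1; ext <;> simp
    · convert h2 using 1; ext <;> simp [sub_eq_add_neg]
    · convert h3 using 1; ext <;> simp
    · convert h4 using 1; ext <;> simp [sub_eq_add_neg]

theorem main (hpub : Published) {J : ℝ} (hJ : 0 < J) {l : ℝ} (hl : 0 < l) :
    ¬ HasData J V0 l := by
  rintro ⟨β, Zs, Ze, hβ, hZs, -, -, hdom⟩
  obtain ⟨hplus, hmix, z, hz, C, C', hne, hC, hC'⟩ := hpub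
  have hp1 := pts_one hz
  -- limits at λ = 0
  have L1 : LimitsExist (fun a => gibbs (Kc / J) J V0 0 (sites square a)
      ((fun _ _ => 1 : ℝ → Conf) a)) square := by
    intro n m x y j hP
    obtain ⟨D, hD⟩ := hplus n m x y j hP
    exact ⟨D, hasLimit_zero square_bdd square_open hJ V0 _ _ field_one hP hD⟩
  have Lp : LimitsExist (fun a => gibbs (Kc / J) J V0 0 (sites square a) (bp a)) square := by
    intro n m x y j hP
    obtain ⟨D, hD⟩ := hmix n m x y j hP
    exact ⟨D, hasLimit_zero square_bdd square_open hJ V0 _ _ field_bp hP hD⟩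
  have Lm : LimitsExist (fun a => gibbs (Kc / J) J V0 0 (sites square a) (bm a)) square := by
    intro n m x y j hP
    obtain ⟨D, hD⟩ := hmix n m x y j hP
    exact ⟨D, hasLimit_zero square_bdd square_open hJ V0 _ _ field_bm hP hD⟩
  have o1 := hasLimit_zero square_bdd square_open hJ V0 _ _ field_one hp1 hC
  have op := hasLimit_zero square_bdd square_open hJ V0 _ _ field_bp hp1 hC'
  have om := hasLimit_zero square_bdd square_open hJ V0 _ _ field_bm hp1 hC'
  -- limits at λ = l
  have u1 := hdom square _ square_open square_conn square_bdd bc_one L1 1 0 _ _ _ hp1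
    (by norm_num) C o1
  have up := hdom square _ square_open square_conn square_bdd bc_bp Lp 1 0 _ _ _ hp1
    (by norm_num) C' op
  have um := hdom square _ square_open square_conn square_bdd bc_bm Lm 1 0 _ _ _ hp1
    (by norm_num) C' om
  unfold HasLimit at u1 up um
  simp only [corr_one, pow_one, pow_zero, mul_one] at u1 up um
  -- pointwise inequalities
  have hev : ∀ᶠ a in 𝓝[>] (0:ℝ),
      gibbs β J V0 l (sites square a) (fun _ => 1) (fun σ => a ^ (-(1 / 8) : ℝ) * σ (cell a z)) ≤
      gibbs β J V0 l (sites square a) (bp a) (fun σ => a ^ (-(1 / 8) : ℝ) * σ (cell a z)) +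
      CC β J l * (gibbs β J V0 l (sites square a) (bp a)
          (fun σ => a ^ (-(1 / 8) : ℝ) * σ (cell a z)) -
        gibbs β J V0 l (sites square a) (bm a) (fun σ => a ^ (-(1 / 8) : ℝ) * σ (cell a z))) ∧
      gibbs β J V0 l (sites square a) (bp a) (fun σ => a ^ (-(1 / 8) : ℝ) * σ (cell a z)) ≤
      gibbs β J V0 l (sites square a) (fun _ => 1)
        (fun σ => a ^ (-(1 / 8) : ℝ) * σ (cell a z)) := by
    filter_upwards [small, eventually_nb hz] with a ha hnb
    have hc : 0 ≤ a ^ (-(1 / 8) : ℝ) := Real.rpow_nonneg ha.1.le _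
    have g1 := gibbs_point β J l (sites square a) (fun _ => 1) ⟨cell a z, hnb.1⟩
      (a ^ (-(1 / 8) : ℝ))
    have gp := gibbs_point β J l (sites square a) (bp a) ⟨cell a z, hnb.1⟩
      (a ^ (-(1 / 8) : ℝ))
    have gm := gibbs_point β J l (sites square a) (bm a) ⟨cell a z, hnb.1⟩
      (a ^ (-(1 / 8) : ℝ))
    simp only at g1 gp gm
    rw [g1, gp, gm]
    have k1 := layer hβ hJ hl (sites square a) (bp a) (bm a) (good ha.1 ha.2)
      ⟨cell a z, hnb.1⟩ hnb.2
    have k2 := le_plus hβ.le hJ.le hl.le (sites square a) (bp a) (good ha.1 ha.2).le_one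
      ⟨cell a z, hnb.1⟩
    constructor
    · have := mul_le_mul_of_nonneg_left k1 hc
      linarith
    · exact mul_le_mul_of_nonneg_left k2 hc
  have i1 : Zs * C ≤ Zs * C' + CC β J l * (Zs * C' - Zs * C') := by
    apply le_of_tendsto_of_tendsto u1 (up.add ((up.sub um).const_mul (CC β J l)))
    filter_upwards [hev] with a ha
    exact ha.1
  have i2 : Zs * C' ≤ Zs * C := by
    apply le_of_tendsto_of_tendsto up u1
    filter_upwards [hev] with a ha
    exact ha.2
  have i3 : Zs * C = Zs * C' := by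
    apply le_antisymm _ i2
    linarith
  exact hne (mul_left_cancel₀ hZs i3)

theorem not_universality (hpub : Published) : ¬ Universality := by
  intro h
  obtain ⟨l₀, hl₀, h1⟩ := h 1 one_pos V0 V0_isPotential
  exact main hpub one_pos (l := l₀ / 2) (by linarith)
    (h1 (l₀ / 2) (by rw [abs_of_pos (by linarith)]; linarith))

end Vale.Agent.H15.P144
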