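import Mathlib
import Vale.Agent.H15.P144.Layer
import Vale.Agent.H15.P144.DefsA

namespace Vale.Agent.H15.P144

open Finset Filter Topology

lemma rect_bdd : Bornology.IsBounded rect := by
  rw [Metric.isBounded_iff_subset_closedBall 0]
  refine ⟨4, ?_⟩
  rintro z ⟨h1, h2⟩
  rw [Metric.mem_closedBall, dist_zero_right]
  refine (Complex.norm_le_abs_re_add_abs_im z).trans ?_
  rw [abs_lt] at h1 h2
  have a1 : |z.re| ≤ 2 := by rw [abs_le]; constructor <;> linarith
  have a2 : |z.im| ≤ 2 := by rw [abs_le]; constructor <;> linarith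
  linarith

lemma rect_open : IsOpen rect := by
  unfold rect
  apply IsOpen.and
  · exact isOpen_lt (by fun_prop) continuous_const
  · exact isOpen_lt (by fun_prop) continuous_const

lemma rect_convex : Convex ℝ rect := by
  have h1 : rect = {z : ℂ | -2 < z.re + z.im ∧ z.re + z.im < 2 ∧ -1 < z.re - z.im ∧
      z.re - z.im < 1} := by
    ext z
    unfold rect
    simp only [Set.mem_ofPred_eq, abs_lt]
    tauto
  rw [h1]
  rintro z ⟨a1, a2, a3, a4⟩ w ⟨b1, b2, b3, b4⟩ s t hs ht hst
  have hz : (s • z + t • w).re = s * z.re + t * w.re := by simp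
  have hw : (s • z + t • w).im = s * z.im + t * w.im := by simp
  simp only [Set.mem_ofPred_eq, hz, hw]
  rcases hs.eq_or_lt with h0 | h0
  · have : t = 1 := by linarith
    subst this; rw [← h0]
    refine ⟨?_, ?_, ?_, ?_⟩ <;> linarith
  · have ht1 : t = 1 - s := by linarith
    subst ht1
    refine ⟨?_, ?_, ?_, ?_⟩ <;> nlinarith

lemma rect_conn : IsConnected rect :=
  ⟨⟨0, by unfold rect; simp⟩, rect_convex.isPreconnected⟩

lemma mem_rect {a : ℝ} (ha : 0 < a) {p : Site} :
    p ∈ sites rect a ↔ |a * (p.1 + p.2)| < 2 ∧ |a * (p.1 - p.2)| < 1 := by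
  rw [mem_sites rect_bdd ha]
  unfold rect pt
  simp only [Set.mem_ofPred_eq]
  rw [← mul_add, ← mul_sub]

lemma neg_mem_rect {a : ℝ} (ha : 0 < a) {p : Site} (hp : p ∈ sites rect a) :
    -p ∈ sites rect a := by
  rw [mem_rect ha] at *
  have e1 : a * (((-p).1 : ℤ) + ((-p).2 : ℤ) : ℝ) = -(a * (p.1 + p.2)) := by
    simp only [Prod.fst_neg, Prod.snd_neg]; push_cast; ring
  have e2 : a * (((-p).1 : ℤ) - ((-p).2 : ℤ) : ℝ) = -(a * (p.1 - p.2)) := by
    simp only [Prod.fst_neg, Prod.snd_neg]; push_cast; ring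
  rw [e1, e2, abs_neg, abs_neg]
  exact hp

lemma zero_mem_rect {a : ℝ} (ha : 0 < a) : (0 : Site) ∈ sites rect a := by
  rw [mem_rect ha]; simp

/-- good meshes: reciprocals of odd integers -/
def GoodMesh (a : ℝ) : Prop := ∃ m : ℤ, Odd m ∧ 3 ≤ m ∧ a * m = 1

/-- the sites on the outer lattice rows at good meshes -/
def Edge (m : ℤ) (p : Site) : Prop :=
  ((p.1 + p.2 = 2 * m ∨ p.1 + p.2 = -(2 * m)) ∧ -m < p.1 - p.2 ∧ p.1 - p.2 < m) ∨
  ((p.1 - p.2 = m ∨ p.1 - p.2 = -m) ∧ -(2 * m) < p.1 + p.2 ∧ p.1 + p.2 < 2 * m)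

open Classical in
/-- alternating signs around the rectangle at good meshes, an odd configuration otherwise -/
noncomputable def bA (a : ℝ) (p : Site) : ℝ :=
  if GoodMesh a then
    (if ∃ m : ℤ, a * m = 1 ∧ Edge m p ∧ Odd p.1 then -1 else 1)
  else (if 0 < p.1 + p.2 ∨ (p.1 + p.2 = 0 ∧ 0 < p.1 - p.2) then 1 else -1)

lemma bc_bA : IsBC bA := by
  right; intro a p; unfold bA; split_ifs <;> simp

lemma mem_rect_good {a : ℝ} {m : ℤ} (hm : 3 ≤ m) (ham : a * m = 1) {p : Site} :
    p ∈ sites rect a ↔ (-(2 * m) < p.1 + p.2 ∧ p.1 + p.2 < 2 * m) ∧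
      -m < p.1 - p.2 ∧ p.1 - p.2 < m := by
  have hm0 : (0:ℝ) < m := by exact_mod_cast (by omega : (0:ℤ) < m)
  have ha : 0 < a := by
    by_contra hcon
    rw [not_lt] at hcon
    have := mul_nonpos_of_nonpos_of_nonneg hcon hm0.le
    linarith
  have key : ∀ (x c : ℤ), |a * (x:ℝ)| < c ↔ -(c * m) < x ∧ x < c * m := by
    intro x c
    have e : (x:ℝ) = a * x * m := by
      calc (x:ℝ) = x * 1 := by ring
        _ = x * (a * m) := by rw [ham]
        _ = a * x * m := by ring
    rw [abs_lt]
    constructor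
    · rintro ⟨h1, h2⟩
      constructor
      · have : -((c:ℝ) * m) < x := by rw [e]; nlinarith
        exact_mod_cast this
      · have : (x:ℝ) < c * m := by rw [e]; nlinarith
        exact_mod_cast this
    · rintro ⟨h1, h2⟩
      have h1' : -((c:ℝ) * m) < x := by exact_mod_cast h1
      have h2' : (x:ℝ) < c * m := by exact_mod_cast h2
      rw [e] at h1' h2'
      constructor
      · have : (-(c:ℝ)) * m < a * x * m := by linarith
        exact lt_of_mul_lt_mul_right this hm0.le
      · exact lt_of_mul_lt_mul_right h2' hm0.le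
  rw [mem_rect ha]
  have k1 := key (p.1 + p.2) 2
  have k2 := key (p.1 - p.2) 1
  push_cast at k1 k2
  rw [k1, k2]
  simp only [one_mul]

lemma bA_good {a : ℝ} {m : ℤ} (hodd : Odd m) (hm : 3 ≤ m) (ham : a * m = 1) (p : Site) :
    (Edge m p → Odd p.1 → bA a p = -1) ∧ (¬ Edge m p → bA a p = 1) ∧ (¬ Odd p.1 → bA a p = 1) := by
  have hg : GoodMesh a := ⟨m, hodd, hm, ham⟩
  have hm0 : (m:ℝ) ≠ 0 := by
    have : (m:ℤ) ≠ 0 := by omega
    exact_mod_cast this
  have ha0 : a ≠ 0 := by rintro rfl; simp at ham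
  have huniq : ∀ m' : ℤ, a * m' = 1 → m' = m := by
    intro m' h
    have : a * m' = a * m := by rw [h, ham]
    have := mul_left_cancel₀ ha0 this
    exact_mod_cast this
  unfold bA
  rw [if_pos hg]
  refine ⟨?_, ?_, ?_⟩
  · intro h1 h2; rw [if_pos ⟨m, ham, h1, h2⟩]
  · intro h1; rw [if_neg]
    rintro ⟨m', h2, h3, -⟩
    rw [huniq m' h2] at h3; exact h1 h3
  · intro h1; rw [if_neg]
    rintro ⟨m', -, -, h4⟩
    exact h1 h4

/-- the contribution of a neighbour -/
lemma sum_nb (f : Site → ℝ) (z : Site) : ∑ q ∈ nb z, f q =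
    f (z.1 + 1, z.2) + f (z.1 - 1, z.2) + f (z.1, z.2 + 1) + f (z.1, z.2 - 1) := by
  unfold nb
  rw [Finset.sum_insert, Finset.sum_insert, Finset.sum_insert, Finset.sum_singleton]
  · ring
  · simp only [mem_singleton, Prod.mk.injEq]; omega
  · simp only [mem_insert, mem_singleton, Prod.mk.injEq]; omega
  · simp only [mem_insert, mem_singleton, Prod.mk.injEq]; omega

lemma out_eq (L : Finset Site) (η : Conf) (z : Site) :
    out L η z = ∑ q ∈ nb z, if q ∈ L then 0 else η q := by
  unfold out
  rw [← Finset.sum_filter_add_sum_filter_not (nb z) (fun q => q ∈ L)]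
  have z1 : ∑ q ∈ (nb z).filter (fun q => q ∈ L), (if q ∈ L then 0 else η q) = 0 := by
    apply Finset.sum_eq_zero; intro q hq
    rw [if_pos (Finset.mem_filter.mp hq).2]
  rw [z1, zero_add]
  have : (nb z).filter (fun q => ¬ q ∈ L) = nb z \ L := by
    ext q; simp [Finset.mem_sdiff]
  rw [this]
  apply Finset.sum_congr rfl; intro q hq
  rw [if_neg (Finset.mem_sdiff.mp hq).2]

section good

variable {a : ℝ} {m : ℤ} (hodd : Odd m) (hm : 3 ≤ m) (ham : a * m = 1)
include hodd hm ham

/-- contribution of the site `q` -/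
lemma g_in {q : Site} (h : (-(2 * m) < q.1 + q.2 ∧ q.1 + q.2 < 2 * m) ∧
      -m < q.1 - q.2 ∧ q.1 - q.2 < m) :
    (if q ∈ sites rect a then 0 else bA a q) = 0 := by
  rw [if_pos ((mem_rect_good hm ham).mpr h)]

lemma g_out {q : Site} (h : ¬ ((-(2 * m) < q.1 + q.2 ∧ q.1 + q.2 < 2 * m) ∧
      -m < q.1 - q.2 ∧ q.1 - q.2 < m)) :
    (if q ∈ sites rect a then 0 else bA a q) = bA a q := by
  rw [if_neg (fun h' => h ((mem_rect_good hm ham).mp h'))]

lemma g_ge (q : Site) : -1 ≤ (if q ∈ sites rect a then 0 else bA a q) := by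
  split_ifs
  · norm_num
  · rcases bc_bA with h | h
    · rw [h]; norm_num
    · rcases h a q with h | h <;> rw [h]; norm_num

lemma pair_zero {q r : Site} (hq : Edge m q) (hr : Edge m r) (h : q.1 = r.1 + 1 ∨ r.1 = q.1 + 1) :
    (if q ∈ sites rect a then 0 else bA a q) + (if r ∈ sites rect a then 0 else bA a r) = 0 := by
  have nq : ¬ ((-(2 * m) < q.1 + q.2 ∧ q.1 + q.2 < 2 * m) ∧ -m < q.1 - q.2 ∧ q.1 - q.2 < m) := by
    unfold Edge at hq; omega
  have nr : ¬ ((-(2 * m) < r.1 + r.2 ∧ r.1 + r.2 < 2 * m) ∧ -m < r.1 - r.2 ∧ r.1 - r.2 < m) := by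
    unfold Edge at hr; omega
  rw [g_out hodd hm ham nq, g_out hodd hm ham nr]
  by_cases h1 : Odd q.1
  · have h2 : ¬ Odd r.1 := by rw [Int.odd_iff] at *; omega
    rw [(bA_good hodd hm ham q).1 hq h1, (bA_good hodd hm ham r).2.2 h2]; norm_num
  · have h2 : Odd r.1 := by rw [Int.odd_iff] at *; omega
    rw [(bA_good hodd hm ham q).2.2 h1, (bA_good hodd hm ham r).1 hr h2]; norm_num

lemma out_zero_good {x : Site} (hx : x ∈ sites rect a) : out (sites rect a) (bA a) x = 0 := by
  rw [mem_rect_good hm ham] at hx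
  rw [Int.odd_iff] at hodd
  have hodd' : Odd m := Int.odd_iff.mpr hodd
  rw [out_eq, sum_nb]
  obtain ⟨k, l⟩ := x
  simp only at hx ⊢
  have cases5 : k + l = 2 * m - 1 ∨ k + l = -(2 * m - 1) ∨ k - l = m - 1 ∨ k - l = -(m - 1) ∨
      (-(2 * m - 1) < k + l ∧ k + l < 2 * m - 1 ∧ -(m - 1) < k - l ∧ k - l < m - 1) := by omega
  rcases cases5 with h | h | h | h | h
  · have e2 := g_in hodd' hm ham (q := (k - 1, l)) (by simp only; omega)
    have e4 := g_in hodd' hm ham (q := (k, l - 1)) (by simp only; omega)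
    have e13 := pair_zero hodd' hm ham (q := (k + 1, l)) (r := (k, l + 1))
      (by unfold Edge; simp only; omega) (by unfold Edge; simp only; omega) (by simp)
    rw [e2, e4]; linarith
  · have e1 := g_in hodd' hm ham (q := (k + 1, l)) (by simp only; omega)
    have e3 := g_in hodd' hm ham (q := (k, l + 1)) (by simp only; omega)
    have e24 := pair_zero hodd' hm ham (q := (k - 1, l)) (r := (k, l - 1))
      (by unfold Edge; simp only; omega) (by unfold Edge; simp only; omega) (by simp)
    rw [e1, e3]; linarith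
  · have e2 := g_in hodd' hm ham (q := (k - 1, l)) (by simp only; omega)
    have e3 := g_in hodd' hm ham (q := (k, l + 1)) (by simp only; omega)
    have e14 := pair_zero hodd' hm ham (q := (k + 1, l)) (r := (k, l - 1))
      (by unfold Edge; simp only; omega) (by unfold Edge; simp only; omega) (by simp)
    rw [e2, e3]; linarith
  · have e1 := g_in hodd' hm ham (q := (k + 1, l)) (by simp only; omega)
    have e4 := g_in hodd' hm ham (q := (k, l - 1)) (by simp only; omega)
    have e23 := pair_zero hodd' hm ham (q := (k - 1, l)) (r := (k, l + 1))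
      (by unfold Edge; simp only; omega) (by unfold Edge; simp only; omega) (by simp)
    rw [e1, e4]; linarith
  · have e1 := g_in hodd' hm ham (q := (k + 1, l)) (by simp only; omega)
    have e2 := g_in hodd' hm ham (q := (k - 1, l)) (by simp only; omega)
    have e3 := g_in hodd' hm ham (q := (k, l + 1)) (by simp only; omega)
    have e4 := g_in hodd' hm ham (q := (k, l - 1)) (by simp only; omega)
    rw [e1, e2, e3, e4]; norm_num

lemma g_far {q : Site} (h : ¬ ((-(2 * m) < q.1 + q.2 ∧ q.1 + q.2 < 2 * m) ∧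
      -m < q.1 - q.2 ∧ q.1 - q.2 < m)) (h2 : ¬ Edge m q) :
    (if q ∈ sites rect a then 0 else bA a q) = 1 := by
  rw [g_out hodd hm ham h, (bA_good hodd hm ham q).2.1 h2]

lemma out_ge_good {z x : Site} (hz : z ∉ sites rect a) (hx : x ∈ sites rect a)
    (hzx : z ∈ nb x) : 1 ≤ out (sites rect a) (bA a) z := by
  rw [mem_rect_good hm ham] at hx hz
  rw [Int.odd_iff] at hodd
  have hodd' : Odd m := Int.odd_iff.mpr hodd
  rw [out_eq, sum_nb]
  obtain ⟨k, l⟩ := z
  obtain ⟨u, v⟩ := x
  have hE : Edge m (k, l) := by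
    unfold Edge
    rcases nb_cases hzx with h | h | h | h <;>
    · simp only [Prod.mk.injEq] at h hx hz ⊢
      omega
  unfold Edge at hE
  simp only at hE ⊢
  have G := g_ge hodd' hm ham
  rcases hE with ⟨h | h, h3, h4⟩ | ⟨h | h, h3, h4⟩
  · -- s = 2m
    have e1 := g_far hodd' hm ham (q := (k + 1, l)) (by simp only; omega)
      (by unfold Edge; simp only; omega)
    have e3 := g_far hodd' hm ham (q := (k, l + 1)) (by simp only; omega)
      (by unfold Edge; simp only; omega)
    rw [e1, e3]
    by_cases hd : k - l ≤ 0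
    · have e4 := g_in hodd' hm ham (q := (k, l - 1)) (by simp only; omega)
      have e2 := G (k - 1, l)
      rw [e4]; linarith
    · have e2 := g_in hodd' hm ham (q := (k - 1, l)) (by simp only; omega)
      have e4 := G (k, l - 1)
      rw [e2]; linarith
  · have e2 := g_far hodd' hm ham (q := (k - 1, l)) (by simp only; omega)
      (by unfold Edge; simp only; omega)
    have e4 := g_far hodd' hm ham (q := (k, l - 1)) (by simp only; omega)
      (by unfold Edge; simp only; omega)
    rw [e2, e4]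
    by_cases hd : k - l ≤ 0
    · have e1 := g_in hodd' hm ham (q := (k + 1, l)) (by simp only; omega)
      have e3 := G (k, l + 1)
      rw [e1]; linarith
    · have e3 := g_in hodd' hm ham (q := (k, l + 1)) (by simp only; omega)
      have e1 := G (k + 1, l)
      rw [e3]; linarith
  · have e1 := g_far hodd' hm ham (q := (k + 1, l)) (by simp only; omega)
      (by unfold Edge; simp only; omega)
    have e4 := g_far hodd' hm ham (q := (k, l - 1)) (by simp only; omega)
      (by unfold Edge; simp only; omega)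
    rw [e1, e4]
    by_cases hd : k + l ≤ 0
    · have e3 := g_in hodd' hm ham (q := (k, l + 1)) (by simp only; omega)
      have e2 := G (k - 1, l)
      rw [e3]; linarith
    · have e2 := g_in hodd' hm ham (q := (k - 1, l)) (by simp only; omega)
      have e3 := G (k, l + 1)
      rw [e2]; linarith
  · have e2 := g_far hodd' hm ham (q := (k - 1, l)) (by simp only; omega)
      (by unfold Edge; simp only; omega)
    have e3 := g_far hodd' hm ham (q := (k, l + 1)) (by simp only; omega)
      (by unfold Edge; simp only; omega)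
    rw [e2, e3]
    by_cases hd : k + l ≤ 0
    · have e1 := g_in hodd' hm ham (q := (k + 1, l)) (by simp only; omega)
      have e4 := G (k, l - 1)
      rw [e1]; linarith
    · have e4 := g_in hodd' hm ham (q := (k, l - 1)) (by simp only; omega)
      have e1 := G (k + 1, l)
      rw [e4]; linarith

lemma out_zero_conf (L : Finset Site) (z : Site) : out L (fun _ => 0) z = 0 := by
  unfold out; simp

theorem goodA : Good (sites rect a) (bA a) (fun _ => 0) where
  le_out := by
    intro x hx z hz
    rw [out_zero_conf hodd hm ham]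
    by_cases hzL : z ∈ sites rect a
    · rw [out_zero_good hodd hm ham hzL]
    · have := out_ge_good hodd hm ham hzL hx hz
      linarith
  le_one := by
    intro p
    rcases bc_bA with h | h
    · rw [h]; norm_num
    · rcases h a p with h | h <;> rw [h]; norm_num
  inside := by intro x hx; rw [out_zero_good hodd hm ham hx]
  same := by intro x hx; rw [out_zero_good hodd hm ham hx, out_zero_conf hodd hm ham]
  outside := by rintro z hz ⟨x, hx, hzx⟩; exact out_ge_good hodd hm ham hz hx hzx
  gap := by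
    rintro z hz ⟨x, hx, hzx⟩
    rw [out_zero_conf hodd hm ham, zero_add]
    exact out_ge_good hodd hm ham hz hx hzx

end good

end Vale.Agent.H15.P144
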