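import Mathlib
import Vale.Agent.H15.P144.Rect

namespace Vale.Agent.H15.P144

open Finset Filter Topology Vale.Agent.H15.Ising

lemma corr_one' (ex : Ex) (a : ℝ) (z : ℂ) :
    corr ex a (fun _ : Fin 1 => z) (Fin.elim0 : Fin 0 → ℂ) Fin.elim0 =
      ex (fun σ => a ^ (-(1 / 8) : ℝ) * σ (cell a z)) := by
  unfold corr
  congr 1
  funext σ
  simp

lemma pts_one' {U : Set ℂ} {z : ℂ} (hz : z ∈ U) :
    Pts U (fun _ : Fin 1 => z) (Fin.elim0 : Fin 0 → ℂ) := by
  refine ⟨?_, fun _ => hz, fun k => k.elim0⟩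
  rintro (i | k) (i' | k') _
  · congr 1; exact Subsingleton.elim _ _
  · exact k'.elim0
  · exact k.elim0
  · exact k.elim0

/-- reflect and flip -/
def flip (L : Finset Site) (S : Finset Site) : Finset Site := L.filter (fun p => -p ∉ S)

lemma conf_flip {L : Finset Site} (hL : ∀ p ∈ L, -p ∈ L) (S : Finset Site) (p : Site) :
    conf L 0 (flip L S) p = - conf L 0 S (-p) := by
  unfold conf flip
  by_cases hp : p ∈ L
  · have hp' := hL p hp
    rw [if_pos hp, if_pos hp']
    by_cases hS : -p ∈ S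
    · rw [if_pos hS, if_neg]
      rw [Finset.mem_filter]
      rintro ⟨-, h⟩; exact h hS
    · rw [if_neg hS, if_pos]
      · norm_num
      · rw [Finset.mem_filter]; exact ⟨hp, hS⟩
  · have hp' : -p ∉ L := by
      intro h; apply hp; simpa using hL _ h
    rw [if_neg hp, if_neg hp']; simp

lemma sum_neg_reindex {L : Finset Site} (hL : ∀ p ∈ L, -p ∈ L) (f : Site → ℝ) :
    ∑ p ∈ L, f (-p) = ∑ p ∈ L, f p := by
  apply Finset.sum_nbij' (fun p => -p) (fun p => -p)
  · exact fun p hp => hL p hp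
  · exact fun p hp => hL p hp
  · intro p _; simp
  · intro p _; simp
  · intro p _; rfl

lemma critIsing_odd {L : Finset Site} (hL : ∀ p ∈ L, -p ∈ L) (h : Conf)
    (hh : ∀ p ∈ L, h (-p) = - h p) (c : ℝ) :
    critIsing L h (fun σ => c * σ 0) = 0 := by
  unfold critIsing expect
  rw [div_eq_zero_iff]
  left
  refine Finset.sum_involution (fun S _ => flip L S) ?_ ?_
    (fun S _ => by rw [mem_powerset]; unfold flip; exact Finset.filter_subset _ _) ?_
  · intro S _
    beta_reduce
    have e1 : ∀ p, conf L 0 (flip L S) p = - conf L 0 S (-p) := conf_flip hL S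
    have e2 : (∑ p ∈ L, ∑ q ∈ L, if dist2 p q = 1 then conf L 0 (flip L S) p *
        conf L 0 (flip L S) q else 0) =
        ∑ p ∈ L, ∑ q ∈ L, if dist2 p q = 1 then conf L 0 S p * conf L 0 S q else 0 := by
      rw [← sum_neg_reindex hL]
      apply Finset.sum_congr rfl; intro p _
      rw [← sum_neg_reindex hL]
      apply Finset.sum_congr rfl; intro q _
      have hd : dist2 (-p) (-q) = dist2 p q := by unfold dist2; simp; ring
      rw [hd, e1, e1, neg_neg, neg_neg, neg_mul_neg]
    have e3 : ∑ p ∈ L, h p * conf L 0 (flip L S) p = ∑ p ∈ L, h p * conf L 0 S p := by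
      rw [← sum_neg_reindex hL]
      apply Finset.sum_congr rfl; intro p hp
      rw [e1, hh p hp, neg_neg, neg_mul_neg]
    rw [e2, e3, e1 0, neg_zero]
    ring
  · intro S _ hne hcon
    apply hne
    beta_reduce
    have e1 : conf L 0 (flip L S) 0 = - conf L 0 S 0 := by
      rw [conf_flip hL S 0, neg_zero]
    rw [hcon] at e1
    have : conf L 0 S 0 = 0 := by linarith
    rw [this]; ring
  · intro S hS
    rw [mem_powerset] at hS
    unfold flip
    ext p
    simp only [mem_filter, neg_neg, not_and, not_not]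
    constructor
    · rintro ⟨hp, h1⟩; exact h1 (hL p hp)
    · intro hp; exact ⟨hS hp, fun _ => hp⟩

lemma neg_mem_nb {p q : Site} : q ∈ nb p ↔ -q ∈ nb (-p) := by
  rw [mem_nb, mem_nb]
  have hd : dist2 (-p) (-q) = dist2 p q := by unfold dist2; simp; ring
  rw [hd]

lemma bA_bad {a : ℝ} (h : ¬ GoodMesh a) {p : Site} (hp : p ≠ 0) : bA a (-p) = - bA a p := by
  unfold bA
  rw [if_neg h, if_neg h]
  obtain ⟨k, l⟩ := p
  have hp' : ¬ (k = 0 ∧ l = 0) := by
    rintro ⟨rfl, rfl⟩; exact hp rfl
  simp only [Prod.fst_neg, Prod.snd_neg]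
  split_ifs with h1 h2 h2
  · exfalso; omega
  · norm_num
  · rfl
  · exfalso; omega

lemma out_odd {a : ℝ} (ha : 0 < a) {p : Site} (hp : p ∈ sites rect a) :
    out (sites rect a) (bA a) (-p) = - out (sites rect a) (bA a) p := by
  by_cases hg : GoodMesh a
  · obtain ⟨m, hodd, hm, ham⟩ := hg
    rw [out_zero_good hodd hm ham hp, out_zero_good hodd hm ham (neg_mem_rect ha hp), neg_zero]
  · unfold out
    rw [← Finset.sum_neg_distrib]
    apply Finset.sum_nbij' (fun q => -q) (fun q => -q)
    · intro q hq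
      rw [Finset.mem_sdiff] at *
      refine ⟨?_, ?_⟩
      · have := neg_mem_nb.mp hq.1; simpa using this
      · intro h; apply hq.2; simpa using neg_mem_rect ha h
    · intro q hq
      rw [Finset.mem_sdiff] at *
      refine ⟨neg_mem_nb.mp hq.1, ?_⟩
      intro h; apply hq.2; simpa using neg_mem_rect ha h
    · intro q _; simp
    · intro q _; simp
    · intro q hq
      rw [Finset.mem_sdiff] at hq
      have h0 : -q ≠ 0 := by
        intro h
        rw [neg_eq_zero] at h
        rw [h] at hq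
        exact hq.2 (zero_mem_rect ha)
      have := bA_bad hg h0
      rw [neg_neg] at this
      linarith

lemma cell_zero (a : ℝ) : cell a 0 = 0 := by
  unfold cell; simp

lemma onePoint_bA {J : ℝ} (hJ : 0 < J) (V : Finset Site → ℝ) :
    OnePoint (fun a => gibbs (Kc / J) J V 0 (sites rect a) (bA a)) 0 0 := by
  have hp1 : Pts rect (fun _ : Fin 1 => (0:ℂ)) (Fin.elim0 : Fin 0 → ℂ) :=
    pts_one' (by unfold rect; simp)
  apply hasLimit_zero rect_bdd rect_open hJ V bA (fun a => out (sites rect a) (bA a))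
    (Filter.Eventually.of_forall (fun a p _ => rfl)) hp1
  unfold HasLimit
  simp only [corr_one', cell_zero]
  apply tendsto_const_nhds.congr'
  filter_upwards [self_mem_nhdsWithin] with a ha
  exact (critIsing_odd (fun p hp => neg_mem_rect ha hp) _ (fun p hp => out_odd ha hp) _).symm

lemma eventually_nb' {D : Set ℂ} (hD : Bornology.IsBounded D) (hO : IsOpen D) {z : ℂ}
    (hz : z ∈ D) :
    ∀ᶠ a in 𝓝[>] (0:ℝ), cell a z ∈ sites D a ∧ nb (cell a z) ⊆ sites D a := by
  have h0 := eventually_mem_sites hD hO hz (0, 0) (by simp)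
  have h1 := eventually_mem_sites hD hO hz (1, 0) (by simp)
  have h2 := eventually_mem_sites hD hO hz (-1, 0) (by simp)
  have h3 := eventually_mem_sites hD hO hz (0, 1) (by simp)
  have h4 := eventually_mem_sites hD hO hz (0, -1) (by simp)
  filter_upwards [h0, h1, h2, h3, h4] with a h0 h1 h2 h3 h4
  constructor
  · convert h0 using 1; ext <;> simp
  · intro q hq
    rcases nb_cases hq with rfl | rfl | rfl | rfl
    · convert h1 using 1; ext <;> simp
    · convert h2 using 1; ext <;> simp [sub_eq_add_neg]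
    · convert h3 using 1; ext <;> simp
    · convert h4 using 1; ext <;> simp [sub_eq_add_neg]

/-- the sequence of good meshes -/
noncomputable def mesh (k : ℕ) : ℝ := 1 / (2 * (k:ℝ) + 3)

lemma mesh_pos (k : ℕ) : 0 < mesh k := by unfold mesh; positivity

lemma mesh_good (k : ℕ) : Odd (2 * (k:ℤ) + 3) ∧ (3:ℤ) ≤ 2 * (k:ℤ) + 3 ∧
    mesh k * ((2 * (k:ℤ) + 3 : ℤ) : ℝ) = 1 := by
  refine ⟨⟨k + 1, by ring⟩, by omega, ?_⟩
  unfold mesh
  push_cast
  have : (2 * (k:ℝ) + 3) ≠ 0 := by positivity
  field_simp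

lemma mesh_tendsto : Tendsto mesh atTop (𝓝[>] 0) := by
  rw [tendsto_nhdsWithin_iff]
  refine ⟨?_, Filter.Eventually.of_forall mesh_pos⟩
  unfold mesh
  apply Filter.Tendsto.div_atTop tendsto_const_nhds
  apply Filter.tendsto_atTop_add_const_right
  exact Filter.Tendsto.const_mul_atTop (by norm_num) tendsto_natCast_atTop_atTop

theorem mainA (hpub : PlusOnePoint) {J : ℝ} (hJ : 0 < J) {l : ℝ} (hl : 0 < l) :
    ¬ HasDataPt J V0 l := by
  rintro ⟨β, Zs, Ze, hβ, hZs, -, -, hdom⟩
  obtain ⟨C, hC0, hC⟩ := hpub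
  have h0 : (0:ℂ) ∈ rect := by unfold rect; simp
  have hp1 := pts_one' h0
  have bc1 : IsBC (fun _ _ => 1) := by right; intro a p; simp
  have o1 : OnePoint (fun a => gibbs (Kc / J) J V0 0 (sites rect a)
      ((fun _ _ => 1 : ℝ → Conf) a)) 0 C := by
    apply hasLimit_zero rect_bdd rect_open hJ V0 _ _ _ hp1 hC
    filter_upwards with a p _
    unfold out
    simp
  have ob := onePoint_bA hJ V0
  have u1 := hdom rect _ rect_open rect_conn rect_bdd bc1 1 0 _ _ _ hp1 (by norm_num) C o1
  have ub := hdom rect _ rect_open rect_conn rect_bdd bc_bA 1 0 _ _ _ hp1 (by norm_num) 0 ob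
  unfold HasLimit at u1 ub
  simp only [corr_one', pow_one, pow_zero, mul_one, mul_zero, cell_zero] at u1 ub
  have u1' := u1.comp mesh_tendsto
  have ub' := ub.comp mesh_tendsto
  have hev := mesh_tendsto.eventually (eventually_nb' rect_bdd rect_open h0)
  have hineq : ∀ᶠ k in atTop,
      gibbs β J V0 l (sites rect (mesh k)) (fun _ => 1)
        (fun σ => (mesh k) ^ (-(1 / 8) : ℝ) * σ 0) ≤
      (1 + CC β J l) * gibbs β J V0 l (sites rect (mesh k)) (bA (mesh k))
        (fun σ => (mesh k) ^ (-(1 / 8) : ℝ) * σ 0) ∧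
      0 ≤ gibbs β J V0 l (sites rect (mesh k)) (fun _ => 1)
        (fun σ => (mesh k) ^ (-(1 / 8) : ℝ) * σ 0) := by
    filter_upwards [hev] with k hk
    rw [cell_zero] at hk
    obtain ⟨g1, g2, g3⟩ := mesh_good k
    have hc : 0 ≤ (mesh k) ^ (-(1 / 8) : ℝ) := Real.rpow_nonneg (mesh_pos k).le _
    have e1 := gibbs_point β J l (sites rect (mesh k)) (fun _ => 1) ⟨0, hk.1⟩
      ((mesh k) ^ (-(1 / 8) : ℝ))
    have eb := gibbs_point β J l (sites rect (mesh k)) (bA (mesh k)) ⟨0, hk.1⟩
      ((mesh k) ^ (-(1 / 8) : ℝ))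
    simp only at e1 eb
    rw [e1, eb]
    have k1 := layer hβ hJ hl (sites rect (mesh k)) (bA (mesh k)) (fun _ => 0)
      (goodA g1 g2 g3) ⟨0, hk.1⟩ hk.2
    have hz : hh β J l (sites rect (mesh k)) (fun _ => 0) = fun _ => 0 := by
      funext x
      unfold hh
      simp only [out_zero_conf g1 g2 g3, Finset.sum_const_zero]
      ring
    rw [hz, mag_zero, sub_zero] at k1
    have k2 := mag_nonneg (KK β J l (sites rect (mesh k)))
      (hh β J l (sites rect (mesh k)) fun _ => 1) (KK_nonneg hβ.le hJ.le hl.le _)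
      (by
        intro x
        have := hh_mono hβ.le hJ.le hl.le (sites rect (mesh k)) (η := fun _ => 0)
          (η' := fun _ => 1) (fun _ => zero_le_one) x
        rw [hz] at this
        exact this) ⟨0, hk.1⟩
    constructor
    · have := mul_le_mul_of_nonneg_left k1 hc
      linarith
    · exact mul_nonneg hc k2
  have i1 : Zs * C ≤ (1 + CC β J l) * 0 := by
    apply le_of_tendsto_of_tendsto u1' (ub'.const_mul (1 + CC β J l))
    filter_upwards [hineq] with k hk
    exact hk.1
  have i2 : 0 ≤ Zs * C := by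
    apply ge_of_tendsto u1'
    filter_upwards [hineq] with k hk
    exact hk.2
  have i3 : Zs * C = 0 := le_antisymm (by linarith) i2
  rcases mul_eq_zero.mp i3 with h | h
  · exact hZs h
  · exact hC0 h

theorem not_universalityPt (hpub : PlusOnePoint) : ¬ UniversalityPt := by
  intro h
  obtain ⟨l₀, hl₀, h1⟩ := h 1 one_pos V0 V0_isPotential
  exact mainA hpub one_pos (l := l₀ / 2) (by linarith)
    (h1 (l₀ / 2) (by rw [abs_of_pos (by linarith)]; linarith))

end Vale.Agent.H15.P144
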